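import Vale.Agent.P109.Conj

/-! Transfer to the manifold `Circle × Circle`. -/

open MeasureTheory Set Function Filter Topology
open scoped ContDiff Manifold Real

noncomputable section

namespace Vale.Agent.P109

def h1 : T1 ≃ₜ Circle := AddCircle.homeomorphCircle one_ne_zero

def h2 : Tor ≃ₜ Circle × Circle := h1.prodCongr h1

lemma h1_coe (x : ℝ) : h1 (x : T1) = Circle.exp (2 * π * x) := by
  rw [h1, AddCircle.homeomorphCircle_apply, AddCircle.toCircle_apply_mk, div_one]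

lemma h1_add (x y : T1) : h1 (x + y) = h1 x * h1 y := by
  simp only [h1, AddCircle.homeomorphCircle_apply, AddCircle.toCircle_add]

lemma h2_add (x y : Tor) : h2 (x + y) = h2 x * h2 y :=
  Prod.ext (h1_add _ _) (h1_add _ _)

def loc (u₀ u : Circle) : ℝ := (Complex.arg u₀ + Complex.arg (u * (u₀ : ℂ)⁻¹)) / (2 * π)

lemma loc_spec (u₀ u : Circle) : (loc u₀ u : T1) = h1.symm u := by
  rw [Homeomorph.eq_symm_apply, h1_coe, loc, mul_div_cancel₀ _ (by positivity), Circle.exp_add,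
    Circle.exp_arg, ← Circle.coe_inv, ← Circle.coe_mul, Circle.exp_arg, mul_comm,
    inv_mul_cancel_right]

lemma loc_smooth (u₀ : Circle) : ContMDiffAt (𝓡 1) 𝓘(ℝ, ℝ) ∞ (loc u₀) u₀ := by
  have a : ContDiffAt ℝ ∞
      (fun w : ℂ => (Complex.arg u₀ + (Complex.log (w * (u₀ : ℂ)⁻¹)).im) / (2 * π)) u₀ := by
    refine (contDiffAt_const.add ?_).div_const _
    refine Complex.imCLM.contDiff.contDiffAt.comp (u₀ : ℂ)
      (f := fun w : ℂ => Complex.log (w * (u₀ : ℂ)⁻¹)) ?_
    refine ContDiffAt.comp (u₀ : ℂ) (g := Complex.log) (f := fun w : ℂ => w * (u₀ : ℂ)⁻¹) ?_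
      (contDiffAt_id.mul contDiffAt_const)
    refine (Complex.contDiffAt_log ?_).restrict_scalars ℝ
    rw [mul_inv_cancel₀ u₀.coe_ne_zero]
    exact Complex.one_mem_slitPlane
  have : Fact (Module.finrank ℝ ℂ = 1 + 1) := ⟨Complex.finrank_real_complex⟩
  have b : ContMDiff (𝓡 1) 𝓘(ℝ, ℂ) ∞ (fun u : Circle => (u : ℂ)) := contMDiff_coe_sphere
  have c := a.contMDiffAt.comp u₀ (b u₀)
  refine c.congr_of_eventuallyEq (Eventually.of_forall fun u => ?_)
  simp only [loc, Function.comp, Complex.log_im]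

lemma smooth_desc {f : E → E} (hf : ContDiff ℝ ∞ f) {F : Tor → Tor}
    (h : ∀ z, F (pr z) = pr (f z)) :
    ContMDiff ((𝓡 1).prod (𝓡 1)) ((𝓡 1).prod (𝓡 1)) ∞ (fun p => h2 (F (h2.symm p))) := by
  rintro ⟨u₀, v₀⟩
  have e : (fun p : Circle × Circle => h2 (F (h2.symm p))) = fun p =>
      (Circle.exp (2 * π * (f (loc u₀ p.1, loc v₀ p.2)).1),
        Circle.exp (2 * π * (f (loc u₀ p.1, loc v₀ p.2)).2)) := by
    funext p
    have : h2.symm p = pr (loc u₀ p.1, loc v₀ p.2) :=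
      Prod.ext (loc_spec u₀ p.1).symm (loc_spec v₀ p.2).symm
    rw [this, h]
    exact Prod.ext (h1_coe _) (h1_coe _)
  rw [e]
  have a : ContMDiffAt ((𝓡 1).prod (𝓡 1)) 𝓘(ℝ, E) ∞
      (fun p : Circle × Circle => (loc u₀ p.1, loc v₀ p.2)) (u₀, v₀) :=
    ContMDiffAt.prodMk_space ((loc_smooth u₀).comp (u₀, v₀) contMDiffAt_fst)
      ((loc_smooth v₀).comp (u₀, v₀) contMDiffAt_snd)
  have b1 : ContDiff ℝ ∞ (fun z : E => 2 * π * (f z).1) := contDiff_const.mul hf.fst
  have b2 : ContDiff ℝ ∞ (fun z : E => 2 * π * (f z).2) := contDiff_const.mul hf.snd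
  exact ContMDiffAt.prodMk
    ((contMDiff_circleExp _).comp _ (b1.contMDiff.contMDiffAt.comp _ a))
    ((contMDiff_circleExp _).comp _ (b2.contMDiff.contMDiffAt.comp _ a))

def TD.diffeo (L : TD) :
    (Circle × Circle) ≃ₘ^∞⟮(𝓡 1).prod (𝓡 1), (𝓡 1).prod (𝓡 1)⟯ (Circle × Circle) where
  toFun := fun p => h2 (L.F (h2.symm p))
  invFun := fun p => h2 (L.G (h2.symm p))
  left_inv := fun p => by simp [L.GF]
  right_inv := fun p => by simp [L.FG]
  contMDiff_toFun := smooth_desc L.cf L.pf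
  contMDiff_invFun := smooth_desc L.cg L.pg

lemma mp_h2 [MeasurableSpace Circle] [BorelSpace Circle] (ν : Measure (Circle × Circle))
    [ν.IsHaarMeasure] [IsProbabilityMeasure ν] : MeasurePreserving h2 volume ν := by
  have m : Measurable h2 := h2.continuous.measurable
  refine ⟨m, ?_⟩
  have : IsProbabilityMeasure (Measure.map h2 volume) :=
    Measure.isProbabilityMeasure_map m.aemeasurable
  have : (volume : Measure Tor).IsAddLeftInvariant :=
    inferInstanceAs (((volume : Measure T1).prod (volume : Measure T1)).IsAddLeftInvariant)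
  have : (Measure.map h2 volume).IsMulLeftInvariant := ⟨fun g => by
    rw [Measure.map_map (measurable_const_mul g) m]
    have e : (fun x => g * x) ∘ h2 = h2 ∘ fun x => h2.symm g + x := by
      funext x
      simp [h2_add]
    rw [e, ← Measure.map_map m (measurable_const_add _), map_add_left_eq_self]⟩
  have : (Measure.map h2 volume).IsOpenPosMeasure :=
    h2.continuous.isOpenPosMeasure_map h2.surjective
  have : (Measure.map h2 volume).IsHaarMeasure := {}
  exact Measure.isHaarMeasure_eq_of_isProbabilityMeasure _ _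

theorem main {X : Type*} [MeasurableSpace X] [StandardBorelSpace X] (μ : Measure X)
    [IsProbabilityMeasure μ] (T : X ≃ᵐ X) (hT : MeasurePreserving T μ μ)
    (q : ℕ → ℕ) (hq : ∀ n, 0 < q n) (hd : ∀ n, q n ∣ q (n + 1)) (hu : ∀ B, ∃ n, B < q n)
    (φ : ∀ n, X → ZMod (q n)) (h : OdoData μ T q hd φ)
    [MeasurableSpace Circle] [BorelSpace Circle]
    (ν : Measure (Circle × Circle)) [ν.IsHaarMeasure] [IsProbabilityMeasure ν] :
    ∃ S : (Circle × Circle) ≃ₘ^∞⟮(𝓡 1).prod (𝓡 1), (𝓡 1).prod (𝓡 1)⟯ (Circle × Circle),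
      MeasurePreserving S ν ν ∧
      ∃ (X₀ : Set X) (M₀ : Set (Circle × Circle)) (F : X → Circle × Circle)
        (G : Circle × Circle → X),
        MeasurableSet X₀ ∧ MeasurableSet M₀ ∧ μ X₀ᶜ = 0 ∧ ν M₀ᶜ = 0 ∧
        T ⁻¹' X₀ = X₀ ∧ S ⁻¹' M₀ = M₀ ∧ Measurable F ∧ Measurable G ∧
        BijOn F X₀ M₀ ∧ InvOn G F X₀ M₀ ∧ MeasurePreserving F μ ν ∧
        ∀ x ∈ X₀, F (T x) = S (F x) := by
  obtain ⟨L, ψ, hψ⟩ := exists_odo q hq hd hu
  have a : MeasurePreserving h2.toMeasurableEquiv volume ν := mp_h2 ν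
  have b : MeasurePreserving h2.symm ν volume := a.symm
  have c : MeasurePreserving L.diffeo ν ν := a.comp (L.mF.comp b)
  refine ⟨L.diffeo, c, ?_⟩
  have d : OdoData ν L.diffeo.toHomeomorph.toMeasurableEquiv q hd
      (fun n p => ψ n (h2.symm p)) := by
    refine ⟨fun n => (hψ.meas n).comp b.measurable, fun n => ?_, fun n => ?_, ?_⟩
    · filter_upwards [b.quasiMeasurePreserving.ae (hψ.step n)] with p hp
      rw [← hp]
      congr 1
      exact h2.symm_apply_apply _
    · exact b.quasiMeasurePreserving.ae (hψ.comp n)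
    · obtain ⟨Y₁, e1, e2⟩ := hψ.sep
      refine ⟨h2.symm ⁻¹' Y₁, b.quasiMeasurePreserving.preimage_null e1, fun x hx y hy hxy => ?_⟩
      exact h2.symm.injective (e2 _ hx _ hy hxy)
  exact conj T L.diffeo.toHomeomorph.toMeasurableEquiv hT c h d hq

end Vale.Agent.P109
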