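import Vale.Agent.P109.Odo

/-! Two systems with the same odometer structure are isomorphic. -/

open MeasureTheory Set Function Filter Topology

noncomputable section

namespace Vale.Agent.P109

variable {X : Type*} [MeasurableSpace X] {μ : Measure X}

lemma invariant_core (T : X ≃ᵐ X) (hT : MeasurePreserving T μ μ) {A : Set X} (hA : μ Aᶜ = 0) :
    ∃ B, MeasurableSet B ∧ B ⊆ A ∧ μ Bᶜ = 0 ∧ T ⁻¹' B = B := by
  let e : Equiv.Perm X := T.toEquiv
  have he : ∀ n : ℤ, MeasurePreserving (e ^ n) μ μ := by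
    intro n
    induction n using Int.induction_on with
    | zero => exact MeasurePreserving.id μ
    | succ n ih => rw [zpow_add_one]; exact ih.comp hT
    | pred n ih => rw [zpow_sub_one]; exact ih.comp hT.symm
  let A' := (toMeasurable μ Aᶜ)ᶜ
  have mA : MeasurableSet A' := (measurableSet_toMeasurable _ _).compl
  refine ⟨⋂ n : ℤ, (e ^ n) ⁻¹' A', MeasurableSet.iInter fun n => (he n).measurable mA, ?_, ?_, ?_⟩
  · intro x hx
    have h1 : x ∈ A' := mem_iInter.1 hx 0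
    by_contra h2
    exact h1 (subset_toMeasurable μ Aᶜ h2)
  · rw [compl_iInter]
    refine measure_iUnion_null fun n => ?_
    rw [← preimage_compl, (he n).measure_preimage mA.compl.nullMeasurableSet, compl_compl,
      measure_toMeasurable, hA]
  · ext x
    simp only [mem_preimage, mem_iInter]
    have h1 : ∀ n : ℤ, (e ^ n) (T x) = (e ^ (n + 1)) x := fun n => by
      rw [zpow_add_one]; rfl
    simp only [h1]
    refine ⟨fun h n => ?_, fun h n => h _⟩
    simpa using h (n - 1)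

variable {q : ℕ → ℕ} {hd : ∀ n, q n ∣ q (n + 1)}

lemma OdoData.mul_eq_one [IsProbabilityMeasure μ] {T : X → X} (hT : MeasurePreserving T μ μ)
    {φ : ∀ n, X → ZMod (q n)} (h : OdoData μ T q hd φ) (hq : ∀ n, 0 < q n) (n : ℕ)
    (c : ZMod (q n)) : (q n : ENNReal) * μ (φ n ⁻¹' {c}) = 1 := by
  have : NeZero (q n) := ⟨(hq n).ne'⟩
  have h1 : ∀ c : ZMod (q n), μ (φ n ⁻¹' {c + 1}) = μ (φ n ⁻¹' {c}) := by
    intro c
    rw [← hT.measure_preimage (h.meas n (measurableSet_singleton _)).nullMeasurableSet]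
    refine measure_congr ?_
    filter_upwards [h.step n] with x hx
    change (φ n (T x) = c + 1) = (φ n x = c)
    rw [hx, add_left_inj]
  have h2 : ∀ k : ℕ, μ (φ n ⁻¹' {c + k}) = μ (φ n ⁻¹' {c}) := by
    intro k
    induction k with
    | zero => simp
    | succ k ih => rw [Nat.cast_succ, ← add_assoc, h1, ih]
  have h3 : ∀ d : ZMod (q n), μ (φ n ⁻¹' {d}) = μ (φ n ⁻¹' {c}) := by
    intro d
    rw [← h2 (d - c).val]
    simp
  have h4 := sum_measure_preimage_singleton (μ := μ) (Finset.univ : Finset (ZMod (q n)))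
    (f := φ n) (fun y _ => h.meas n (measurableSet_singleton y))
  simp only [h3, Finset.sum_const, Finset.card_univ, ZMod.card, nsmul_eq_mul, Finset.coe_univ,
    preimage_univ, measure_univ] at h4
  exact h4

lemma OdoData.comp_le {T : X → X} {φ : ∀ n, X → ZMod (q n)} (h : OdoData μ T q hd φ)
    {m n : ℕ} (hmn : m ≤ n) :
    ∀ᵐ x ∂μ, ZMod.castHom (dvd_of_le hd hmn) (ZMod (q m)) (φ n x) = φ m x := by
  induction n, hmn using Nat.le_induction with
  | base =>
    refine Eventually.of_forall fun x => ?_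
    rw [Subsingleton.elim (ZMod.castHom _ (ZMod (q m))) (RingHom.id _)]
    rfl
  | succ n hmn ih =>
    filter_upwards [ih, h.comp n] with x h1 h2
    rw [← h1, ← h2, ← RingHom.comp_apply]
    congr 1
    exact Subsingleton.elim _ _

variable {Y : Type*} [MeasurableSpace Y] {ν : Measure Y}

lemma law_eq [IsProbabilityMeasure μ] [IsProbabilityMeasure ν] {T : X → X} {S : Y → Y}
    (hT : MeasurePreserving T μ μ) (hS : MeasurePreserving S ν ν)
    {φ : ∀ n, X → ZMod (q n)} {ψ : ∀ n, Y → ZMod (q n)} (h : OdoData μ T q hd φ)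
    (h' : OdoData ν S q hd ψ) (hq : ∀ n, 0 < q n) :
    μ.map (fun x n => φ n x) = ν.map (fun y n => ψ n y) := by
  have m1 : Measurable (fun x n => φ n x) := measurable_pi_lambda _ h.meas
  have m2 : Measurable (fun y n => ψ n y) := measurable_pi_lambda _ h'.meas
  have h1 : ∀ n, μ.map (φ n) = ν.map (ψ n) := by
    intro n
    have : NeZero (q n) := ⟨(hq n).ne'⟩
    refine Measure.ext_of_singleton fun c => ?_
    rw [Measure.map_apply (h.meas n) (measurableSet_singleton c),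
      Measure.map_apply (h'.meas n) (measurableSet_singleton c)]
    have a := h.mul_eq_one hT hq n c
    have b := h'.mul_eq_one hS hq n c
    exact (ENNReal.mul_right_inj (by exact_mod_cast (hq n).ne') (ENNReal.natCast_ne_top _)).1
      (a.trans b.symm)
  refine IsProjectiveLimit.unique
    (P := fun I => (ν.map (fun y n => ψ n y)).map I.restrict) (fun I => ?_) (fun I => rfl)
  let N := I.sup id
  let r : ZMod (q N) → ∀ i : I, ZMod (q i) := fun c i =>
    ZMod.castHom (dvd_of_le hd (Finset.le_sup (f := id) i.2)) (ZMod (q i)) c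
  have mr : Measurable r := measurable_from_top
  have a : μ.map (I.restrict ∘ fun x n => φ n x) = μ.map (r ∘ φ N) := by
    refine Measure.map_congr ?_
    have : ∀ᵐ x ∂μ, ∀ i : I, r (φ N x) i = φ i x :=
      ae_all_iff.2 fun i => h.comp_le (Finset.le_sup (f := id) i.2)
    filter_upwards [this] with x hx
    exact funext fun i => (hx i).symm
  have b : ν.map (I.restrict ∘ fun x n => ψ n x) = ν.map (r ∘ ψ N) := by
    refine Measure.map_congr ?_
    have : ∀ᵐ x ∂ν, ∀ i : I, r (ψ N x) i = ψ i x :=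
      ae_all_iff.2 fun i => h'.comp_le (Finset.le_sup (f := id) i.2)
    filter_upwards [this] with x hx
    exact funext fun i => (hx i).symm
  dsimp only
  rw [Measure.map_map I.measurable_restrict m1, Measure.map_map I.measurable_restrict m2, a, b,
    ← Measure.map_map mr (h.meas N), ← Measure.map_map mr (h'.meas N), h1]

/-- a good invariant set together with a measurable left inverse of the coding map -/
lemma OdoData.good [StandardBorelSpace X] [IsProbabilityMeasure μ] (T : X ≃ᵐ X)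
    (hT : MeasurePreserving T μ μ) {φ : ∀ n, X → ZMod (q n)} (h : OdoData μ T q hd φ)
    (hq : ∀ n, 0 < q n) :
    ∃ (B : Set X) (ι : (∀ n, ZMod (q n)) → X), MeasurableSet B ∧ μ Bᶜ = 0 ∧ T ⁻¹' B = B ∧
      Measurable ι ∧ (∀ x ∈ B, ι (fun n => φ n x) = x) ∧
      (∀ x ∈ B, (fun n => φ n (T x)) = (fun n => φ n x) + 1) ∧
      MeasurableSet ((fun x n => φ n x) '' B) := by
  have : ∀ n, NeZero (q n) := fun n => ⟨(hq n).ne'⟩
  have : Nonempty X := nonempty_of_isProbabilityMeasure μ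
  obtain ⟨X₁, h1, h2⟩ := h.sep
  have h3 : ∀ᵐ x ∂μ, x ∈ X₁ ∧ ∀ n, φ n (T x) = φ n x + 1 :=
    Eventually.and h1 (ae_all_iff.2 h.step)
  obtain ⟨B, mB, sB, vB, iB⟩ := invariant_core T hT h3
  have m1 : Measurable (fun x n => φ n x) := measurable_pi_lambda _ h.meas
  have inj : InjOn (fun x n => φ n x) B := fun x hx y hy hxy =>
    h2 x (sB hx).1 y (sB hy).1 (congrFun hxy)
  have := mB.standardBorel
  have emb : MeasurableEmbedding (fun x : B => fun n => φ n x) :=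
    (m1.comp measurable_subtype_coe).measurableEmbedding
      (fun x y hxy => Subtype.ext (inj x.2 y.2 hxy))
  obtain ⟨ι, mι, hι⟩ := emb.exists_measurable_extend (g := fun x : B => (x : X))
    measurable_subtype_coe (fun _ => inferInstance)
  exact ⟨B, ι, mB, vB, iB, mι, fun x hx => congrFun hι ⟨x, hx⟩,
    fun x hx => funext (sB hx).2, mB.image_of_measurable_injOn m1 inj⟩

lemma image_inv {Ω : Type*} [AddGroup Ω] {a : Ω} (T : X ≃ᵐ X) {B : Set X} (iB : T ⁻¹' B = B)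
    {Φ : X → Ω} (h : ∀ x ∈ B, Φ (T x) = Φ x + a) (c : Ω) : c + a ∈ Φ '' B ↔ c ∈ Φ '' B := by
  constructor
  · rintro ⟨x, hx, e⟩
    have h1 : T.symm x ∈ B := by
      rw [← iB]
      simpa using hx
    refine ⟨T.symm x, h1, ?_⟩
    have h2 := h _ h1
    rw [T.apply_symm_apply, e] at h2
    exact (add_right_cancel h2).symm
  · rintro ⟨x, hx, rfl⟩
    refine ⟨T x, ?_, h x hx⟩
    rw [← iB] at hx
    exact hx

theorem conj [StandardBorelSpace X] [StandardBorelSpace Y] [IsProbabilityMeasure μ]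
    [IsProbabilityMeasure ν] (T : X ≃ᵐ X) (S : Y ≃ᵐ Y)
    (hT : MeasurePreserving T μ μ) (hS : MeasurePreserving S ν ν)
    {φ : ∀ n, X → ZMod (q n)} {ψ : ∀ n, Y → ZMod (q n)} (h : OdoData μ T q hd φ)
    (h' : OdoData ν S q hd ψ) (hq : ∀ n, 0 < q n) :
    ∃ (X₀ : Set X) (Y₀ : Set Y) (F : X → Y) (G : Y → X),
      MeasurableSet X₀ ∧ MeasurableSet Y₀ ∧ μ X₀ᶜ = 0 ∧ ν Y₀ᶜ = 0 ∧
      T ⁻¹' X₀ = X₀ ∧ S ⁻¹' Y₀ = Y₀ ∧ Measurable F ∧ Measurable G ∧
      BijOn F X₀ Y₀ ∧ InvOn G F X₀ Y₀ ∧ MeasurePreserving F μ ν ∧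
      ∀ x ∈ X₀, F (T x) = S (F x) := by
  obtain ⟨A, ι, mA, vA, iA, mι, hι, eA, mA'⟩ := h.good T hT hq
  obtain ⟨B, κ, mB, vB, iB, mκ, hκ, eB, mB'⟩ := h'.good S hS hq
  have hl := law_eq hT hS h h' hq
  set Φ : X → ∀ n, ZMod (q n) := fun x n => φ n x with hΦ
  set Ψ : Y → ∀ n, ZMod (q n) := fun y n => ψ n y with hΨ
  have m1 : Measurable Φ := measurable_pi_lambda _ h.meas
  have m2 : Measurable Ψ := measurable_pi_lambda _ h'.meas
  have v1 : μ (Φ ⁻¹' (Ψ '' B))ᶜ = 0 := by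
    rw [← preimage_compl, ← Measure.map_apply m1 mB'.compl, hl, Measure.map_apply m2 mB'.compl]
    exact measure_mono_null (fun y hy hyB => hy (mem_image_of_mem _ hyB)) vB
  have v2 : ν (Ψ ⁻¹' (Φ '' A))ᶜ = 0 := by
    rw [← preimage_compl, ← Measure.map_apply m2 mA'.compl, ← hl, Measure.map_apply m1 mA'.compl]
    exact measure_mono_null (fun y hy hyB => hy (mem_image_of_mem _ hyB)) vA
  have hι' : ∀ x ∈ A, ι (Φ x) = x := hι
  have hκ' : ∀ y ∈ B, κ (Ψ y) = y := hκ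
  have eA' : ∀ x ∈ A, Φ (T x) = Φ x + 1 := eA
  have eB' : ∀ y ∈ B, Ψ (S y) = Ψ y + 1 := eB
  have f1 : ∀ x ∈ A ∩ Φ ⁻¹' (Ψ '' B), κ (Φ x) ∈ B ∧ Ψ (κ (Φ x)) = Φ x := by
    rintro x ⟨-, y, hy, e⟩
    rw [← e, hκ' y hy]
    exact ⟨hy, rfl⟩
  have f2 : ∀ y ∈ B ∩ Ψ ⁻¹' (Φ '' A), ι (Ψ y) ∈ A ∧ Φ (ι (Ψ y)) = Ψ y := by
    rintro y ⟨-, x, hx, e⟩
    rw [← e, hι' x hx]
    exact ⟨hx, rfl⟩
  have g1 : MapsTo (fun x => κ (Φ x)) (A ∩ Φ ⁻¹' (Ψ '' B)) (B ∩ Ψ ⁻¹' (Φ '' A)) :=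
    fun x hx => ⟨(f1 x hx).1, x, hx.1, (f1 x hx).2.symm⟩
  have g2 : MapsTo (fun y => ι (Ψ y)) (B ∩ Ψ ⁻¹' (Φ '' A)) (A ∩ Φ ⁻¹' (Ψ '' B)) :=
    fun y hy => ⟨(f2 y hy).1, y, hy.1, (f2 y hy).2.symm⟩
  have g3 : InvOn (fun y => ι (Ψ y)) (fun x => κ (Φ x)) (A ∩ Φ ⁻¹' (Ψ '' B))
      (B ∩ Ψ ⁻¹' (Φ '' A)) :=
    ⟨fun x hx => by dsimp only; rw [(f1 x hx).2, hι' x hx.1],
      fun y hy => by dsimp only; rw [(f2 y hy).2, hκ' y hy.1]⟩
  refine ⟨A ∩ Φ ⁻¹' (Ψ '' B), B ∩ Ψ ⁻¹' (Φ '' A), fun x => κ (Φ x), fun y => ι (Ψ y),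
    mA.inter (m1 mB'), mB.inter (m2 mA'), ?_, ?_, ?_, ?_, mκ.comp m1, mι.comp m2,
    g3.bijOn g1 g2, g3, ⟨mκ.comp m1, ?_⟩, ?_⟩
  · rw [compl_inter]
    exact measure_union_null vA v1
  · rw [compl_inter]
    exact measure_union_null vB v2
  · ext x
    rw [preimage_inter, iA]
    refine and_congr_right fun hx => ?_
    change Φ (T x) ∈ Ψ '' B ↔ Φ x ∈ Ψ '' B
    rw [eA' x hx, image_inv S iB eB']
  · ext y
    rw [preimage_inter, iB]
    refine and_congr_right fun hy => ?_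
    change Ψ (S y) ∈ Φ '' A ↔ Ψ y ∈ Φ '' A
    rw [eB' y hy, image_inv T iA eA']
  · change μ.map (κ ∘ Φ) = ν
    rw [← Measure.map_map mκ m1, hl, Measure.map_map mκ m2]
    conv_rhs => rw [← Measure.map_id (μ := ν)]
    refine Measure.map_congr ?_
    have : ∀ᵐ y ∂ν, y ∈ B := vB
    filter_upwards [this] with y hy
    exact hκ' y hy
  · intro x hx
    obtain ⟨h1, h2⟩ := f1 x hx
    have h3 : S (κ (Φ x)) ∈ B := by
      rw [← iB] at h1
      exact h1
    dsimp only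
    rw [eA' x hx.1, ← h2, ← eB' _ h1, hκ' _ h3, h2]

end Vale.Agent.P109
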