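import Mathlib

open MeasureTheory
open scoped ContDiff Manifold

namespace Vale.Agent.P109

/-- `T` is an odometer: it has compatible cyclic factors `ZMod (q n)`, `q n ∣ q (n+1)`,
`q n` unbounded, which separate the points of a conull set. -/
def IsOdometer {X : Type*} [MeasurableSpace X] (μ : Measure X) (T : X → X) : Prop :=
  ∃ (q : ℕ → ℕ) (hd : ∀ n, q n ∣ q (n + 1)) (φ : ∀ n, X → ZMod (q n)),
    (∀ n, 0 < q n) ∧ (∀ B, ∃ n, B < q n) ∧ (∀ n, Measurable (φ n)) ∧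
    (∀ n, ∀ᵐ x ∂μ, φ n (T x) = φ n x + 1) ∧
    (∀ n, ∀ᵐ x ∂μ, ZMod.castHom (hd n) (ZMod (q n)) (φ (n + 1) x) = φ n x) ∧
    ∃ X₁ : Set X, μ X₁ᶜ = 0 ∧ ∀ x ∈ X₁, ∀ y ∈ X₁, (∀ n, φ n x = φ n y) → x = y

/-- measure-theoretic isomorphism of two systems -/
def Isomorphic {X Y : Type*} [MeasurableSpace X] [MeasurableSpace Y] (μ : Measure X) (T : X → X)
    (ν : Measure Y) (S : Y → Y) : Prop :=
  ∃ (X₀ : Set X) (Y₀ : Set Y) (F : X → Y) (G : Y → X),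
    MeasurableSet X₀ ∧ MeasurableSet Y₀ ∧ μ X₀ᶜ = 0 ∧ ν Y₀ᶜ = 0 ∧
    T ⁻¹' X₀ = X₀ ∧ S ⁻¹' Y₀ = Y₀ ∧ Measurable F ∧ Measurable G ∧
    Set.BijOn F X₀ Y₀ ∧ Set.InvOn G F X₀ Y₀ ∧ MeasurePreserving F μ ν ∧
    ∀ x ∈ X₀, F (T x) = S (F x)

/-- smooth self-maps of the two-torus -/
def TorusSmooth (S : Circle × Circle → Circle × Circle) : Prop :=
  ContMDiff ((𝓡 1).prod (𝓡 1)) ((𝓡 1).prod (𝓡 1)) ∞ S

end Vale.Agent.P109
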