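import Vale.Agent.P109.TD

/-! Small parameters and smooth limits. -/

open MeasureTheory Set Function Filter Topology
open scoped ContDiff

noncomputable section

namespace Vale.Agent.P109

lemma slice_deriv (Fn : ℝ × E → E) (hF : ContDiff ℝ ∞ Fn) (j : ℕ) (β : ℝ) (z : E) :
    iteratedFDeriv ℝ j (fun z => Fn (β, z)) z =
      (iteratedFDeriv ℝ j Fn (β, z)).compContinuousLinearMap
        (fun _ => ContinuousLinearMap.inr ℝ ℝ E) := by
  have e : (fun z => Fn (β, z)) =
      (fun w => Fn ((β, 0) + w)) ∘ (ContinuousLinearMap.inr ℝ ℝ E) := by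
    funext z
    simp
  have hc : ContDiff ℝ ∞ (fun w => Fn ((β, 0) + w)) := hF.comp (contDiff_const.add contDiff_id)
  rw [e, ContinuousLinearMap.iteratedFDeriv_comp_right _ hc _ (by exact_mod_cast le_top),
    iteratedFDeriv_comp_add_left]
  simp

lemma small_param (Fn : ℝ × E → E) (hF : ContDiff ℝ ∞ Fn) (h0 : ∀ z, Fn (0, z) = 0)
    (hp : ∀ β m z, Fn (β, z + lat m) = Fn (β, z)) (n : ℕ) (ε : ℝ) (hε : 0 < ε) :
    ∃ δ > 0, ∀ β, |β| < δ → ∀ j ≤ n, ∀ z,
      ‖iteratedFDeriv ℝ j (fun z => Fn (β, z)) z‖ ≤ ε := by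
  have h1 : ∀ j : ℕ, ∀ᶠ β in 𝓝 (0 : ℝ), ∀ z,
      ‖iteratedFDeriv ℝ j (fun z => Fn (β, z)) z‖ ≤ ε := by
    intro j
    have hc : Continuous (fun p : ℝ × E => iteratedFDeriv ℝ j (fun z => Fn (p.1, z)) p.2) := by
      simp only [slice_deriv Fn hF]
      exact (ContinuousMultilinearMap.compContinuousLinearMapL
        (fun _ : Fin j => ContinuousLinearMap.inr ℝ ℝ E)).continuous.comp
        (hF.continuous_iteratedFDeriv (by exact_mod_cast le_top))
    have hK : IsCompact (Icc (0 : ℝ) 1 ×ˢ Icc (0 : ℝ) 1) := isCompact_Icc.prod isCompact_Icc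
    have h2 := hK.eventually_forall_of_forall_eventually (x₀ := (0 : ℝ))
      (P := fun β z => ‖iteratedFDeriv ℝ j (fun z => Fn (β, z)) z‖ < ε) (by
        intro z _
        have h3 : ‖iteratedFDeriv ℝ j (fun z => Fn (0, z)) z‖ < ε := by
          simp only [h0]
          rw [iteratedFDeriv_fun_zero]
          simpa using hε
        exact (hc.norm.tendsto (0, z)).eventually (gt_mem_nhds h3))
    filter_upwards [h2] with β hβ z
    have e : z = (Int.fract z.1, Int.fract z.2) + lat (⌊z.1⌋, ⌊z.2⌋) := by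
      simp [lat]
    rw [e, ← iteratedFDeriv_comp_add_right]
    simp only [hp]
    exact (hβ _ ⟨⟨Int.fract_nonneg _, (Int.fract_lt_one _).le⟩,
      ⟨Int.fract_nonneg _, (Int.fract_lt_one _).le⟩⟩).le
  have h4 : ∀ᶠ β in 𝓝 (0 : ℝ), ∀ j ∈ Finset.range (n + 1), ∀ z,
      ‖iteratedFDeriv ℝ j (fun z => Fn (β, z)) z‖ ≤ ε :=
    (eventually_all_finset _).2 fun j _ => h1 j
  obtain ⟨δ, hδ, h5⟩ := Metric.eventually_nhds_iff.1 h4
  refine ⟨δ, hδ, fun β hβ j hj => h5 (by simpa using hβ) j (Finset.mem_range.2 (by omega))⟩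

lemma stepB (K : TD) (v w : E) (n : ℕ) (ε : ℝ) (hε : 0 < ε) :
    ∃ δ > 0, ∀ β : ℝ, |β| < δ → ∀ j ≤ n, ∀ z,
      ‖iteratedFDeriv ℝ j (fun z => K.f (K.g z + (v + β • w)) - K.f (K.g z + v)) z‖ ≤ ε := by
  refine small_param (fun p => K.f (K.g p.2 + (v + p.1 • w)) - K.f (K.g p.2 + v)) ?_ ?_ ?_ n ε hε
  · have h1 : ContDiff ℝ ∞ (fun p : ℝ × E => K.g p.2) := K.cg.comp contDiff_snd
    exact (K.cf.comp (h1.add (contDiff_const.add (contDiff_fst.smul contDiff_const)))).sub
      (K.cf.comp (h1.add contDiff_const))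
  · intro z
    simp
  · intro β m z
    simp only [K.conj_lat]
    abel

lemma limit_map (f : ℕ → E → E) (hf : ∀ n, ContDiff ℝ ∞ (f n))
    (hb : ∀ n, ∀ j ≤ n, ∀ z,
      ‖iteratedFDeriv ℝ j (fun z => f (n + 1) z - f n z) z‖ ≤ (1 / 2) ^ n) :
    ∃ F : E → E, ContDiff ℝ ∞ F ∧ ∀ n z, dist (f n z) (F z) ≤ 2 * (1 / 2) ^ n := by
  have h0 : ∀ n z, ‖f (n + 1) z - f n z‖ ≤ (1 / 2) ^ n := by
    intro n z
    have := hb n 0 (Nat.zero_le _) z
    rwa [norm_iteratedFDeriv_zero] at this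
  refine ⟨fun z => f 0 z + ∑' n, (f (n + 1) z - f n z), (hf 0).add ?_, ?_⟩
  · refine contDiff_tsum_of_eventually (N := ⊤) (v := fun _ n => (1 / 2 : ℝ) ^ n)
      (fun n => (hf (n + 1)).sub (hf n)) (fun _ _ => summable_geometric_two) ?_
    intro k _
    rw [Nat.cofinite_eq_atTop]
    filter_upwards [eventually_ge_atTop k] with n hn z
    exact hb n k hn z
  · intro n z
    have hs : Summable (fun n => f (n + 1) z - f n z) :=
      Summable.of_norm_bounded summable_geometric_two (fun n => h0 n z)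
    have ht : Tendsto (fun n => f n z) atTop (𝓝 (f 0 z + ∑' n, (f (n + 1) z - f n z))) := by
      have := hs.hasSum.tendsto_sum_nat.const_add (f 0 z)
      simp only [Finset.sum_range_sub (fun n => f n z), add_sub_cancel] at this
      exact this
    have := dist_le_of_le_geometric_of_tendsto (1 / 2) 1 (by norm_num)
      (f := fun n => f n z) (fun n => by
        rw [dist_comm, dist_eq_norm, one_mul]; exact h0 n z) ht n
    refine this.trans (le_of_eq ?_)
    ring

lemma tendsto_of_geom {α : Type*} [PseudoMetricSpace α] {u : ℕ → α} {a : α}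
    (h : ∀ n, dist (u n) a ≤ 2 * (1 / 2) ^ n) : Tendsto u atTop (𝓝 a) := by
  rw [tendsto_iff_dist_tendsto_zero]
  refine squeeze_zero (fun _ => dist_nonneg) h ?_
  have := (tendsto_pow_atTop_nhds_zero_of_lt_one (r := (1 / 2 : ℝ)) (by norm_num)
    (by norm_num)).const_mul 2
  simpa using this

def rep (p : Tor) : E := ((AddCircle.equivIco 1 0 p.1 : ℝ), (AddCircle.equivIco 1 0 p.2 : ℝ))

lemma pr_rep (p : Tor) : pr (rep p) = p :=
  Prod.ext ((AddCircle.equivIco 1 0).symm_apply_apply _)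
    ((AddCircle.equivIco 1 0).symm_apply_apply _)

lemma desc_pr {f : E → E} (hf : ∀ m z, f (z + lat m) = f z + lat m) (z : E) :
    pr (f (rep (pr z))) = pr (f z) := by
  obtain ⟨m, hm⟩ := exists_lat_of_pr_eq (pr_rep (pr z)).symm
  rw [hm, hf, pr_add_lat]

lemma limit_inv {f g : ℕ → E → E} {F G : E → E} (hF : Continuous F)
    (hf : ∀ n z, dist (f n z) (F z) ≤ 2 * (1 / 2) ^ n)
    (hg : ∀ n z, dist (g n z) (G z) ≤ 2 * (1 / 2) ^ n) (h : ∀ n z, f n (g n z) = z) (z : E) :
    F (G z) = z := by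
  have h1 : Tendsto (fun n => F (g n z)) atTop (𝓝 (F (G z))) :=
    (hF.tendsto _).comp (tendsto_of_geom (hg · z))
  have h2 : Tendsto (fun n => F (g n z)) atTop (𝓝 z) := by
    refine tendsto_of_geom fun n => ?_
    have := hf n (g n z)
    rwa [h, dist_comm] at this
  exact tendsto_nhds_unique h1 h2

lemma limit_lat {f : ℕ → E → E} {F : E → E}
    (hf : ∀ n z, dist (f n z) (F z) ≤ 2 * (1 / 2) ^ n)
    (h : ∀ n m z, f n (z + lat m) = f n z + lat m) (m : ℤ × ℤ) (z : E) :
    F (z + lat m) = F z + lat m := by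
  have h1 := tendsto_of_geom (hf · (z + lat m))
  have h2 := (tendsto_of_geom (hf · z)).add_const (lat m)
  simp only [h] at h1
  exact tendsto_nhds_unique h1 h2

lemma limit_TD (S : ℕ → TD) (lf : ∀ n m z, (S n).f (z + lat m) = (S n).f z + lat m)
    (lg : ∀ n m z, (S n).g (z + lat m) = (S n).g z + lat m)
    (bf : ∀ n, ∀ j ≤ n, ∀ z,
      ‖iteratedFDeriv ℝ j (fun z => (S (n + 1)).f z - (S n).f z) z‖ ≤ (1 / 2) ^ n)
    (bg : ∀ n, ∀ j ≤ n, ∀ z,
      ‖iteratedFDeriv ℝ j (fun z => (S (n + 1)).g z - (S n).g z) z‖ ≤ (1 / 2) ^ n) :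
    ∃ L : TD, ∀ n p, dist ((S n).F p) (L.F p) ≤ 2 * (1 / 2) ^ n := by
  obtain ⟨f, cf, hf⟩ := limit_map (fun n => (S n).f) (fun n => (S n).cf) bf
  obtain ⟨g, cg, hg⟩ := limit_map (fun n => (S n).g) (fun n => (S n).cg) bg
  have ef := limit_lat hf lf
  have eg := limit_lat hg lg
  have hd : ∀ n p, dist ((S n).F p) (pr (f (rep p))) ≤ 2 * (1 / 2) ^ n := by
    intro n p
    conv_lhs => rw [← pr_rep p, (S n).pf, pr_rep]
    exact (dist_pr_le _ _).trans (hf n _)
  have hc : Continuous (fun p => pr (f (rep p))) := by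
    rw [← oq.continuous_comp_iff]
    have : (fun p => pr (f (rep p))) ∘ pr = pr ∘ f := funext (desc_pr ef)
    rw [this]
    exact continuous_pr.comp cf.continuous
  refine ⟨⟨f, g, fun p => pr (f (rep p)), fun p => pr (g (rep p)), cf, cg,
    limit_inv cg.continuous hg hf (fun n => (S n).gf),
    limit_inv cf.continuous hf hg (fun n => (S n).fg), fun m => ⟨m, ef m⟩, fun m => ⟨m, eg m⟩,
    desc_pr ef, desc_pr eg, hc.measurable, ?_⟩, hd⟩
  apply ext_of_forall_integral_eq_of_IsFiniteMeasure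
  intro φ
  rw [integral_map hc.measurable.aemeasurable φ.continuous.aestronglyMeasurable]
  have h1 : Tendsto (fun n => ∫ p, φ ((S n).F p)) atTop (𝓝 (∫ p, φ (pr (f (rep p))))) := by
    refine tendsto_integral_of_dominated_convergence (fun _ => ‖φ‖)
      (fun n => (φ.continuous.comp (S n).contF).aestronglyMeasurable) (integrable_const _)
      (fun n => Eventually.of_forall fun p => φ.norm_coe_le_norm _)
      (Eventually.of_forall fun p => (φ.continuous.tendsto _).comp (tendsto_of_geom (hd · p)))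
  have h2 : ∀ n, ∫ p, φ ((S n).F p) = ∫ p, φ p := by
    intro n
    rw [← integral_map (S n).contF.measurable.aemeasurable φ.continuous.aestronglyMeasurable,
      (S n).mF.map_eq]
  simp only [h2] at h1
  exact (tendsto_nhds_unique tendsto_const_nhds h1).symm

end Vale.Agent.P109
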