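import Vale.Agent.P109.Rec

/-! The limit diffeomorphism has the odometer structure. -/

open MeasureTheory Set Function Filter Topology
open scoped ContDiff symmDiff

noncomputable section

namespace Vale.Agent.P109

structure OdoData {X : Type*} [MeasurableSpace X] (μ : Measure X) (T : X → X) (q : ℕ → ℕ)
    (hd : ∀ n, q n ∣ q (n + 1)) (φ : ∀ n, X → ZMod (q n)) : Prop where
  meas : ∀ n, Measurable (φ n)
  step : ∀ n, ∀ᵐ x ∂μ, φ n (T x) = φ n x + 1
  comp : ∀ n, ∀ᵐ x ∂μ, ZMod.castHom (hd n) (ZMod (q n)) (φ (n + 1) x) = φ n x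
  sep : ∃ X₁ : Set X, μ X₁ᶜ = 0 ∧ ∀ x ∈ X₁, ∀ y ∈ X₁, (∀ n, φ n x = φ n y) → x = y

lemma tendsto_geom_ennreal :
    Tendsto (fun n : ℕ => ENNReal.ofReal (2 * (1 / 2) ^ n)) atTop (𝓝 0) := by
  have := (tendsto_pow_atTop_nhds_zero_of_lt_one (r := (1 / 2 : ℝ)) (by norm_num)
    (by norm_num)).const_mul 2
  have := ENNReal.tendsto_ofReal this
  simpa using this

lemma exists_odo (q : ℕ → ℕ) (hq : ∀ n, 0 < q n) (hd : ∀ n, q n ∣ q (n + 1))
    (hu : ∀ B, ∃ n, B < q n) :
    ∃ (L : TD) (ψ : ∀ n, Tor → ZMod (q n)), OdoData volume L.F q hd ψ := by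
  classical
  obtain ⟨L, S, j, Φ, D, hj, mΦ, mD, vD, hS, hstep, hcomp, hsep⟩ := construction q hq hd hu
  let En : ℕ → Set Tor := fun n => ⋂ k, D (n + k)
  have mE : ∀ n, MeasurableSet (En n) := fun n => MeasurableSet.iInter fun k => mD _
  have vE : ∀ n, volume (En n)ᶜ ≤ ENNReal.ofReal (2 * (1 / 2) ^ n) := by
    intro n
    simp only [En, compl_iInter]
    refine (measure_iUnion_le _).trans ((ENNReal.tsum_le_tsum fun k => vD (n + k)).trans ?_)
    have hs : Summable (fun k : ℕ => (1 / 2 : ℝ) ^ (n + k)) := by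
      simp only [pow_add]
      exact summable_geometric_two.mul_left _
    rw [← ENNReal.ofReal_tsum_of_nonneg (fun k => by positivity) hs]
    simp only [pow_add]
    rw [tsum_mul_left, tsum_geometric_two, mul_comm]
  have monoE : ∀ n m p, p ∈ En n → p ∈ En (n + m) := by
    intro n m p hp
    simp only [En, mem_iInter] at hp ⊢
    intro k
    rw [add_assoc]
    exact hp _
  have dv : ∀ {a b : ℕ}, a ≤ b → ((q a : ℕ) : ℤ) ∣ (q b : ℕ) := fun h => by
    exact_mod_cast dvd_of_le hd h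
  have chain : ∀ n p, p ∈ En n → ∀ k, Φ (n + k) p ≡ Φ n p [ZMOD q (j n)] := by
    intro n p hp k
    induction k with
    | zero => rfl
    | succ k ih =>
      have h1 : p ∈ D (n + k + 1) := mem_iInter.1 hp (k + 1)
      exact ((hcomp (n + k) p h1).of_dvd (dv (hj.monotone (Nat.le_add_right n k)))).trans ih
  let Y₁ : Set Tor := ⋃ n, En n
  have mY : MeasurableSet Y₁ := MeasurableSet.iUnion mE
  have vY : volume Y₁ᶜ = 0 := by
    refine le_antisymm (ge_of_tendsto' tendsto_geom_ennreal fun n => ?_) zero_le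
    exact (measure_mono (compl_subset_compl.2 (subset_iUnion En n))).trans (vE n)
  have hex : ∀ p, ∃ n, p ∈ En n ∨ p ∉ Y₁ := by
    intro p
    by_cases hp : p ∈ Y₁
    · obtain ⟨n, hn⟩ := mem_iUnion.1 hp
      exact ⟨n, Or.inl hn⟩
    · exact ⟨0, Or.inr hp⟩
  let ψ : ∀ m, Tor → ZMod (q m) := fun m p => (Φ (Nat.find (hex p) + m) p : ZMod (q m))
  have mψ : ∀ m, Measurable (ψ m) := by
    intro m
    refine Measurable.find (f := fun n p => (Φ (n + m) p : ZMod (q m)))
      (p := fun n p => p ∈ En n ∨ p ∉ Y₁) (fun n => ?_) (fun n => (mE n).union mY.compl) hex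
    exact (measurable_of_countable (fun a : ℤ => (a : ZMod (q m)))).comp (mΦ _)
  have key : ∀ m n p, p ∈ En n → m ≤ n → ψ m p = (Φ n p : ZMod (q m)) := by
    intro m n p hp hmn
    have h1 : p ∈ En (Nat.find (hex p)) := by
      rcases Nat.find_spec (hex p) with h | h
      · exact h
      · exact absurd (mem_iUnion.2 ⟨n, hp⟩) h
    have h2 := (chain _ p (monoE _ m p h1) n).of_dvd
      (dv (show m ≤ j (Nat.find (hex p) + m) from le_trans (Nat.le_add_left _ _) (hj.id_le _)))
    have h3 := (chain n p hp (Nat.find (hex p) + m)).of_dvd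
      (dv (show m ≤ j n from le_trans hmn (hj.id_le _)))
    rw [add_comm n] at h3
    exact (ZMod.intCast_eq_intCast_iff _ _ _).2 (h2.symm.trans h3)
  refine ⟨L, ψ, mψ, fun m => ?_, fun m => ?_, Y₁, vY, ?_⟩
  · have : NeZero (q m) := ⟨(hq m).ne'⟩
    let Sc : ℕ → C(Tor, Tor) := fun n => ⟨(S n).F, (S n).contF⟩
    let Lc : C(Tor, Tor) := ⟨L.F, L.contF⟩
    have hT : Tendsto Sc atTop (𝓝 Lc) := by
      refine tendsto_of_geom fun n => ?_
      exact (ContinuousMap.dist_le (by positivity)).2 (hS n)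
    have h1 : ∀ c : ZMod (q m), Tendsto
        (fun n => volume ((Sc n ⁻¹' (ψ m ⁻¹' {c})) ∆ (Lc ⁻¹' (ψ m ⁻¹' {c})))) atTop (𝓝 0) :=
      fun c => tendsto_measure_symmDiff_preimage_nhds_zero hT
        (Eventually.of_forall fun n => (S n).mF) L.mF
        (mψ m (measurableSet_singleton c)).nullMeasurableSet (measure_ne_top _ _)
    have h2 := ((tendsto_finsetSum Finset.univ fun c _ => h1 c).add tendsto_geom_ennreal).add
      tendsto_geom_ennreal
    simp only [Finset.sum_const_zero, add_zero] at h2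
    rw [ae_iff]
    refine le_antisymm (ge_of_tendsto h2 ?_) zero_le
    filter_upwards [eventually_ge_atTop m] with n hn
    have h3 : {p | ¬ψ m (L.F p) = ψ m p + 1} ⊆
        ((⋃ c : ZMod (q m), (Sc n ⁻¹' (ψ m ⁻¹' {c})) ∆ (Lc ⁻¹' (ψ m ⁻¹' {c}))) ∪ (En n)ᶜ) ∪
          (S n).F ⁻¹' (En n)ᶜ := by
      intro p hp
      by_contra hc
      simp only [mem_union, mem_iUnion, mem_compl_iff, mem_preimage, not_or, not_exists,
        not_not] at hc
      obtain ⟨⟨h4, h5⟩, h6⟩ := hc
      apply hp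
      have h7 : ψ m (L.F p) = ψ m ((S n).F p) := by
        by_contra h8
        exact h4 (ψ m ((S n).F p)) (Or.inl ⟨rfl, h8⟩)
      rw [h7, key m n _ h6 hn, key m n _ h5 hn]
      have h9 := (hstep n p).of_dvd (dv (show m ≤ j n from le_trans hn (hj.id_le _)))
      rw [(ZMod.intCast_eq_intCast_iff _ _ _).2 h9]
      push_cast
      rfl
    refine (measure_mono h3).trans ((measure_union_le _ _).trans (add_le_add
      ((measure_union_le _ _).trans (add_le_add ?_ (vE n))) ?_))
    · exact measure_iUnion_fintype_le _ _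
    · rw [(S n).mF.measure_preimage (mE n).compl.nullMeasurableSet]
      exact vE n
  · have : ∀ᵐ p, p ∈ Y₁ := vY
    filter_upwards [this] with p hp
    obtain ⟨n, hn⟩ := mem_iUnion.1 hp
    have h1 := monoE n (m + 1) p hn
    rw [key (m + 1) _ p h1 (by omega), key m _ p h1 (by omega), map_intCast]
  · intro p hp p' hp' h
    obtain ⟨n, hn⟩ := mem_iUnion.1 hp
    obtain ⟨n', hn'⟩ := mem_iUnion.1 hp'
    have h1 : ∀ k, dist p p' ≤ (1 / 2) ^ (n + n' + k) := by
      intro k
      have a1 : p ∈ En (n + n' + k) := by rw [add_assoc]; exact monoE _ _ _ hn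
      have a2 : p' ∈ En (n + n' + k) := by rw [add_comm n, add_assoc]; exact monoE _ _ _ hn'
      generalize n + n' + k = N at a1 a2
      refine hsep N p p' (mem_iInter.1 a1 0) (mem_iInter.1 a2 0) (mem_iInter.1 a1 1)
        (mem_iInter.1 a2 1) ?_
      have b1 := monoE _ 1 _ a1
      have b2 := monoE _ 1 _ a2
      have c := h (j (N + 1))
      rw [key _ _ p (monoE _ (j (N + 1)) _ b1) (by omega),
        key _ _ p' (monoE _ (j (N + 1)) _ b2) (by omega), ZMod.intCast_eq_intCast_iff] at c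
      exact ((chain _ p b1 _).symm.trans c).trans (chain _ p' b2 _)
    have h2 : Tendsto (fun k : ℕ => (1 / 2 : ℝ) ^ (n + n' + k)) atTop (𝓝 0) := by
      have := (tendsto_pow_atTop_nhds_zero_of_lt_one (r := (1 / 2 : ℝ)) (by norm_num)
        (by norm_num)).const_mul ((1 / 2 : ℝ) ^ (n + n'))
      simpa only [← pow_add, mul_zero] using this
    exact dist_le_zero.1 (ge_of_tendsto' h2 h1)

end Vale.Agent.P109
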