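import Vale.Agent.P109.StepA
import Vale.Agent.P109.Limit

/-! The inductive construction. -/

open MeasureTheory Set Function Filter Topology
open scoped ContDiff

noncomputable section

namespace Vale.Agent.P109

lemma lift_pair (q : ℕ) (p p' : Tor) (h : fl q p.1 ≡ fl q p'.1 [ZMOD q]) :
    ∃ z z' : E, pr z = p ∧ pr z' = p' ∧ ⌊(q : ℝ) * z.1⌋ = ⌊(q : ℝ) * z'.1⌋ ∧
      |z.2 - z'.2| = dist p.2 p'.2 := by
  obtain ⟨z, rfl⟩ := pr_surj p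
  obtain ⟨w, rfl⟩ := pr_surj p'
  have h1 : ⌊(q : ℝ) * w.1⌋ ≡ ⌊(q : ℝ) * z.1⌋ [ZMOD q] :=
    ((fl_coe q w.1).symm.trans h.symm).trans (fl_coe q z.1)
  obtain ⟨a, ha⟩ := h1.dvd
  refine ⟨z, w + lat (a, round (z.2 - w.2)), rfl, pr_add_lat _ _, ?_, ?_⟩
  · simp only [lat, Prod.fst_add]
    rw [mul_add, show (q : ℝ) * a = ((q * a : ℤ) : ℝ) by push_cast; ring, Int.floor_add_intCast]
    linarith
  · simp only [lat, Prod.snd_add, pr]
    rw [dist_eq_norm, ← AddCircle.coe_sub, UnitAddCircle.norm_eq]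
    congr 1
    ring

lemma dvd_of_le {q : ℕ → ℕ} (hd : ∀ n, q n ∣ q (n + 1)) {m n : ℕ} (h : m ≤ n) : q m ∣ q n := by
  induction n, h using Nat.le_induction with
  | base => exact dvd_rfl
  | succ n _ ih => exact ih.trans (hd n)

structure St where
  K : TD
  j : ℕ
  C : Set Tor
  δ : ℝ

def Sep (q : ℕ → ℕ) (n : ℕ) (s : St) : Prop :=
  0 < s.δ ∧ MeasurableSet s.C ∧ volume s.Cᶜ ≤ ENNReal.ofReal ((1 / 2) ^ n) ∧
    ∀ p p', p ∈ s.C → p' ∈ s.C → fl (q s.j) p.1 ≡ fl (q s.j) p'.1 [ZMOD q s.j] →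
      dist p.2 p'.2 < s.δ → dist (s.K.F p) (s.K.F p') ≤ (1 / 2) ^ n

def Smap (q : ℕ → ℕ) (s : St) : TD := s.K.comp ((TD.tr (1 / (q s.j : ℝ))).comp s.K.inv)

def Rel (q : ℕ → ℕ) (n : ℕ) (s t : St) : Prop :=
  s.j < t.j ∧
  (∀ j ≤ n, ∀ z, ‖iteratedFDeriv ℝ j (fun z => (Smap q t).f z - (Smap q s).f z) z‖ ≤ (1 / 2) ^ n) ∧
  (∀ j ≤ n, ∀ z, ‖iteratedFDeriv ℝ j (fun z => (Smap q t).g z - (Smap q s).g z) z‖ ≤ (1 / 2) ^ n) ∧
  (∀ p, t.K.G p ∈ t.C → fl (q t.j) (t.K.G p).1 ≡ fl (q s.j) (s.K.G p).1 [ZMOD q s.j]) ∧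
  (∀ p p', t.K.G p ∈ t.C → t.K.G p' ∈ t.C →
    fl (q t.j) (t.K.G p).1 ≡ fl (q t.j) (t.K.G p').1 [ZMOD q t.j] →
      dist (s.K.G p).2 (s.K.G p').2 < s.δ)

lemma sep_of {q : ℕ} {K : TD} {C : Set Tor} {δ ε : ℝ}
    (h : ∀ z z', pr z ∈ C → pr z' ∈ C → ⌊(q : ℝ) * z.1⌋ = ⌊(q : ℝ) * z'.1⌋ →
        |z.2 - z'.2| < δ → dist (K.F (pr z)) (K.F (pr z')) ≤ ε) :
    ∀ p p', p ∈ C → p' ∈ C → fl q p.1 ≡ fl q p'.1 [ZMOD q] →
      dist p.2 p'.2 < δ → dist (K.F p) (K.F p') ≤ ε := by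
  intro p p' hp hp' hf hd
  obtain ⟨z, z', rfl, rfl, h1, h2⟩ := lift_pair q p p' hf
  exact h z z' hp hp' h1 (h2 ▸ hd)

lemma init (q : ℕ → ℕ) (hq : ∀ n, 0 < q n) : ∃ s : St, Sep q 0 s := by
  obtain ⟨K, C, δ, h1, h2, h3, -, -, h4⟩ := stepA TD.swap (q 0) 1 (hq 0) ((1 / 2) ^ 0)
    (by positivity)
  exact ⟨⟨K, 0, C, δ⟩, h1, h2, h3, sep_of h4⟩

lemma step (q : ℕ → ℕ) (hq : ∀ n, 0 < q n) (hd : ∀ n, q n ∣ q (n + 1))
    (hu : ∀ B, ∃ n, B < q n) (n : ℕ) (s : St) (hs : Sep q n s) :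
    ∃ t : St, Sep q (n + 1) t ∧ Rel q n s t := by
  obtain ⟨K, j, C, δ⟩ := s
  have hδ : 0 < δ := hs.1
  obtain ⟨δf, hδf, hf⟩ := stepB K (1 / (q j : ℝ), 0) (0, 1) n ((1 / 2) ^ n) (by positivity)
  obtain ⟨δg, hδg, hg⟩ := stepB K (-(1 / (q j : ℝ), 0)) (-(0, 1)) n ((1 / 2) ^ n) (by positivity)
  obtain ⟨B, hB⟩ := exists_nat_gt (1 / δf + 1 / δg + (2 * q j + 3) / δ)
  obtain ⟨j0, hj0⟩ := hu B
  set j' := j0 + j + 1 with hj'
  have hB' : (B : ℝ) < q j' := by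
    have : q j0 ≤ q j' := Nat.le_of_dvd (hq _) (dvd_of_le hd (by omega))
    exact_mod_cast lt_of_lt_of_le hj0 this
  obtain ⟨k, hk⟩ : q j ∣ q j' := dvd_of_le hd (by omega)
  have hqj : (0 : ℝ) < q j := by exact_mod_cast hq j
  have hqj' : (0 : ℝ) < q j' := by exact_mod_cast hq j'
  have hk' : (q j' : ℝ) = q j * k := by exact_mod_cast hk
  have hk0 : (k : ℝ) ≠ 0 := by
    intro h
    rw [h, mul_zero] at hk'
    exact hqj'.ne' hk'
  have p1 : (0 : ℝ) < 1 / δf := by positivity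
  have p2 : (0 : ℝ) < 1 / δg := by positivity
  have p3 : (0 : ℝ) < (2 * q j + 3) / δ := by positivity
  have b1 : |1 / (q j' : ℝ)| < δf := by
    rw [abs_of_pos (by positivity), one_div_lt hqj' hδf]
    linarith
  have b2 : |1 / (q j' : ℝ)| < δg := by
    rw [abs_of_pos (by positivity), one_div_lt hqj' hδg]
    linarith
  have b3 : (2 * q j + 3) / (q j' : ℝ) < δ := by
    rw [div_lt_iff₀ hqj', mul_comm δ, ← div_lt_iff₀ hδ]
    linarith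
  obtain ⟨K', C', δ', h1, h2, h3, h4, h5, h6⟩ := stepA (K.comp (TD.lin k)) (q j') (q j) (hq j')
    ((1 / 2) ^ (n + 1)) (by positivity)
  refine ⟨⟨K', j', C', δ'⟩, ⟨h1, h2, h3, sep_of h6⟩, by change j < j'; omega, ?_, ?_, ?_, ?_⟩
  · have e : ∀ z, (Smap q ⟨K', j', C', δ'⟩).f z - (Smap q ⟨K, j, C, δ⟩).f z =
        K.f (K.g z + ((1 / (q j : ℝ), 0) + (1 / (q j' : ℝ)) • ((0 : ℝ), (1 : ℝ)))) -
          K.f (K.g z + (1 / (q j : ℝ), 0)) := by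
      intro z
      simp only [Smap, TD.comp_f, TD.inv_f, TD.tr_f, h4, K'.fg, TD.comp_g, TD.lin_f, TD.lin_g]
      congr 2
      ext
      · simp [hk']
        field_simp
        ring
      · simp
    simp only [e]
    exact hf _ b1
  · have e : ∀ z, (Smap q ⟨K', j', C', δ'⟩).g z - (Smap q ⟨K, j, C, δ⟩).g z =
        K.f (K.g z + (-(1 / (q j : ℝ), 0) + (1 / (q j' : ℝ)) • (-((0 : ℝ), (1 : ℝ))))) -
          K.f (K.g z + -(1 / (q j : ℝ), 0)) := by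
      intro z
      have e1 : K'.f (K'.g z - (1 / (q j' : ℝ), 0)) =
          (K.comp (TD.lin k)).f ((K.comp (TD.lin k)).g z - (1 / (q j' : ℝ), 0)) := by
        have e2 := h4 (K'.g z - (1 / (q j' : ℝ), 0))
        rw [sub_add_cancel, K'.fg] at e2
        conv_rhs => rw [e2, TD.gf, add_sub_cancel_right, TD.fg]
      simp only [Smap, TD.comp_f, TD.inv_g, TD.tr_g, e1, TD.comp_g, TD.lin_f, TD.lin_g]
      congr 2
      ext
      · simp [hk']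
        field_simp
        ring
      · simp [sub_eq_add_neg]
    simp only [e]
    exact hg _ b2
  · intro p hp
    dsimp only at hp ⊢
    obtain ⟨z, hz⟩ := pr_surj (K'.G p)
    have hp' : p = pr (K'.f z) := by rw [← K'.pf, hz, K'.FG]
    rw [← hz] at hp ⊢
    have h7 := (h5 z hp).1
    rw [hp', K.pg]
    simp only [TD.comp_g, TD.lin_g] at h7
    rw [show (q j' : ℝ) * (K.g (K'.f z)).2 + q j * ((K.g (K'.f z)).1 - k * (K.g (K'.f z)).2) =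
      q j * (K.g (K'.f z)).1 by rw [hk']; ring] at h7
    have h8 : fl (q j') (z.1 : T1) ≡ ⌊(q j' : ℝ) * z.1⌋ [ZMOD q j] :=
      (fl_coe (q j') z.1).of_dvd (by exact_mod_cast Dvd.intro _ hk.symm)
    exact (h8.trans h7).trans (fl_coe (q j) _).symm
  · intro p p' hp hp' hfl
    dsimp only at hp hp' hfl ⊢
    obtain ⟨z, z', hz, hz', h7, -⟩ := lift_pair _ _ _ hfl
    have e : p = pr (K'.f z) := by rw [← K'.pf, hz, K'.FG]
    have e' : p' = pr (K'.f z') := by rw [← K'.pf, hz', K'.FG]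
    rw [← hz] at hp
    rw [← hz'] at hp'
    have h8 := (h5 z hp).2
    have h9 := (h5 z' hp').2
    simp only [TD.comp_g, TD.lin_g] at h8 h9
    rw [e, e', K.pg, K.pg]
    refine lt_of_le_of_lt (dist_coe_le _ _) (lt_of_le_of_lt ?_ b3)
    have h10 : |z.1 - z'.1| ≤ 1 / (q j' : ℝ) := by
      rw [le_div_iff₀ hqj', ← abs_of_pos hqj', ← abs_mul, sub_mul, mul_comm z.1, mul_comm z'.1]
      exact (Int.abs_sub_lt_one_of_floor_eq_floor h7).le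
    have h11 : (2 * q j + 3) / (q j' : ℝ) = (q j + 1) / q j' + (q j + 1) / q j' + 1 / q j' := by
      ring
    rw [abs_le] at h8 h9 h10 ⊢
    constructor <;> linarith [h8.1, h8.2, h9.1, h9.2, h10.1, h10.2]

lemma construction (q : ℕ → ℕ) (hq : ∀ n, 0 < q n) (hd : ∀ n, q n ∣ q (n + 1))
    (hu : ∀ B, ∃ n, B < q n) :
    ∃ (L : TD) (S : ℕ → TD) (j : ℕ → ℕ) (Φ : ℕ → Tor → ℤ) (D : ℕ → Set Tor),
      StrictMono j ∧ (∀ n, Measurable (Φ n)) ∧ (∀ n, MeasurableSet (D n)) ∧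
      (∀ n, volume (D n)ᶜ ≤ ENNReal.ofReal ((1 / 2) ^ n)) ∧
      (∀ n p, dist ((S n).F p) (L.F p) ≤ 2 * (1 / 2) ^ n) ∧
      (∀ n p, Φ n ((S n).F p) ≡ Φ n p + 1 [ZMOD q (j n)]) ∧
      (∀ n p, p ∈ D (n + 1) → Φ (n + 1) p ≡ Φ n p [ZMOD q (j n)]) ∧
      (∀ n p p', p ∈ D n → p' ∈ D n → p ∈ D (n + 1) → p' ∈ D (n + 1) →
        Φ (n + 1) p ≡ Φ (n + 1) p' [ZMOD q (j (n + 1))] → dist p p' ≤ (1 / 2) ^ n) := by
  obtain ⟨s0, hs0⟩ := init q hq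
  choose nx hnx using step q hq hd hu
  let sq : (n : ℕ) → {s : St // Sep q n s} := fun n =>
    Nat.rec ⟨s0, hs0⟩ (fun n s => ⟨nx n s.1 s.2, (hnx n s.1 s.2).1⟩) n
  have hR : ∀ n, Rel q n (sq n).1 (sq (n + 1)).1 := fun n => (hnx n (sq n).1 (sq n).2).2
  obtain ⟨L, hL⟩ := limit_TD (fun n => Smap q (sq n).1)
    (fun n m z => by simp only [Smap, TD.comp_f, TD.inv_f, TD.tr_f, TD.conj_lat])
    (fun n m z => by
      simp only [Smap, TD.comp_g, TD.inv_g, TD.tr_g, sub_eq_add_neg, TD.conj_lat])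
    (fun n => (hR n).2.1) (fun n => (hR n).2.2.1)
  have hjd : ∀ n, ((q (sq n).1.j : ℕ) : ℤ) ∣ (q (sq (n + 1)).1.j : ℕ) := fun n => by
    exact_mod_cast dvd_of_le hd (hR n).1.le
  refine ⟨L, fun n => Smap q (sq n).1, fun n => (sq n).1.j,
    fun n p => fl (q (sq n).1.j) ((sq n).1.K.G p).1, fun n => (sq n).1.K.G ⁻¹' (sq n).1.C,
    strictMono_nat_of_lt_succ fun n => (hR n).1, fun n => ?_, fun n => ?_, fun n => ?_, hL,
    fun n p => ?_, fun n p hp => (hR n).2.2.2.1 p hp, fun n p p' h1 h2 h3 h4 h5 => ?_⟩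
  · exact (measurable_fl _).comp (measurable_fst.comp (sq n).1.K.contG.measurable)
  · exact (sq n).1.K.contG.measurable (sq n).2.2.1
  · rw [← preimage_compl,
      (sq n).1.K.mG.measure_preimage (sq n).2.2.1.compl.nullMeasurableSet]
    exact (sq n).2.2.2.1
  · simp only [Smap, TD.comp_F, TD.inv_F, TD.GF]
    obtain ⟨z, hz⟩ := pr_surj ((sq n).1.K.G p)
    rw [← hz, TD.pf, TD.tr_f]
    have hq' : (0 : ℝ) < q (sq n).1.j := by exact_mod_cast hq _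
    refine (fl_coe _ _).trans ?_
    simp only [Prod.fst_add]
    rw [mul_add, mul_one_div_cancel hq'.ne', Int.floor_add_one]
    exact (fl_coe _ _).symm.add_right 1
  · have h6 := (hR n).2.2.2.2 p p' h3 h4 h5
    have h7 := (((hR n).2.2.2.1 p h3).symm.trans (h5.of_dvd (hjd n))).trans
      ((hR n).2.2.2.1 p' h4)
    have h8 := (sq n).2.2.2.2 _ _ h1 h2 h7 h6
    rwa [TD.FG, TD.FG] at h8

end Vale.Agent.P109
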