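import Vale.Agent.P109.TD

/-! Smooth sawtooth functions, floor functions on the circle, small bad sets. -/

open MeasureTheory Set Function Filter Topology
open scoped ContDiff

noncomputable section

namespace Vale.Agent.P109

instance prob1 : IsProbabilityMeasure (volume : Measure T1) := ⟨by simp⟩

lemma norm_coe_eq_min (t : ℝ) : ‖(t : T1)‖ = min (Int.fract t) (1 - Int.fract t) := by
  rw [UnitAddCircle.norm_eq, abs_sub_round_eq_min]

lemma exists_saw {η : ℝ} (h0 : 0 < η) (h1 : η < 1 / 2) :
    ∃ s : ℝ → ℝ, ContDiff ℝ ∞ s ∧ (∀ (n : ℤ) t, s (t + n) = s t) ∧ (∀ t, |s t| ≤ 1) ∧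
      ∀ t : ℝ, η ≤ ‖(t : T1)‖ → s t = Int.fract t := by
  let b : ContDiffBump (1 / 2 : ℝ) := ⟨1 / 2 - η, 1 / 2 - η / 2, by linarith, by linarith⟩
  refine ⟨fun t => Int.fract t * b (Int.fract t), ?_, ?_, ?_, ?_⟩
  · rw [contDiff_iff_contDiffAt]
    intro t
    by_cases ht : Int.fract t = 0
    · have hz : ∀ᶠ u in 𝓝 t, Int.fract u * b (Int.fract u) = 0 := by
        have ht' : t = (⌊t⌋ : ℝ) := by
          have := Int.floor_add_fract t
          linarith
        filter_upwards [Ioo_mem_nhds (show t - η / 2 < t by linarith)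
          (show t < t + η / 2 by linarith)] with u hu
        have : b (Int.fract u) = 0 := by
          apply b.zero_of_le_dist
          change 1 / 2 - η / 2 ≤ _
          rw [Real.dist_eq]
          by_cases hut : t ≤ u
          · have : ⌊u⌋ = ⌊t⌋ := by
              rw [Int.floor_eq_iff]
              constructor <;> linarith [hu.1, hu.2]
            rw [Int.fract, this, le_abs]
            right
            linarith [hu.2]
          · have : ⌊u⌋ = ⌊t⌋ - 1 := by
              rw [Int.floor_eq_iff]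
              push_cast
              constructor <;> linarith [hu.1, hu.2]
            rw [Int.fract, this, le_abs]
            left
            push_cast
            linarith [hu.1]
        rw [this, mul_zero]
      exact contDiffAt_const.congr_of_eventuallyEq hz
    · have hlt : (⌊t⌋ : ℝ) < t := by
        have h2 := Int.fract_nonneg t
        have h3 := Int.floor_add_fract t
        have : 0 < Int.fract t := lt_of_le_of_ne h2 (Ne.symm ht)
        linarith
      have hz : ∀ᶠ u in 𝓝 t, Int.fract u * b (Int.fract u) = (u - ⌊t⌋) * b (u - ⌊t⌋) := by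
        filter_upwards [Ioo_mem_nhds hlt (Int.lt_floor_add_one t)] with u hu
        have : ⌊u⌋ = ⌊t⌋ := by
          rw [Int.floor_eq_iff]
          exact ⟨hu.1.le, hu.2⟩
        rw [Int.fract, this]
      refine ContDiffAt.congr_of_eventuallyEq ?_ hz
      have h4 : ContDiff ℝ ∞ (fun u : ℝ => u - ⌊t⌋) := contDiff_id.sub contDiff_const
      exact (h4.mul (b.contDiff.comp h4)).contDiffAt
  · intro n t
    simp only [Int.fract_add_intCast]
  · intro t
    have h2 := Int.fract_nonneg t
    have h3 := (Int.fract_lt_one t).le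
    have h4 : 0 ≤ b (Int.fract t) := b.nonneg
    have h5 : b (Int.fract t) ≤ 1 := b.le_one
    rw [abs_of_nonneg (mul_nonneg h2 h4)]
    nlinarith
  · intro t ht
    rw [norm_coe_eq_min, le_min_iff] at ht
    have : b (Int.fract t) = 1 := by
      apply b.one_of_mem_closedBall
      rw [Metric.mem_closedBall, Real.dist_eq]
      change _ ≤ 1 / 2 - η
      rw [abs_le]
      constructor <;> linarith [ht.1, ht.2]
    simp only [this, mul_one]

lemma fract_sub_fract {η t u : ℝ} (ht : η ≤ ‖(t : T1)‖) (hu : η ≤ ‖(u : T1)‖)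
    (h : |t - u| < 2 * η) : Int.fract t - Int.fract u = t - u := by
  rw [norm_coe_eq_min, le_min_iff] at ht hu
  rw [abs_lt] at h
  have h1 := Int.floor_add_fract t
  have h2 := Int.floor_add_fract u
  have h3 : ((⌊t⌋ - ⌊u⌋ : ℤ) : ℝ) < 1 := by push_cast; linarith [ht.1, hu.2, h.2]
  have h4 : (-1 : ℝ) < ((⌊t⌋ - ⌊u⌋ : ℤ) : ℝ) := by push_cast; linarith [ht.2, hu.1, h.1]
  have h5 : ⌊t⌋ - ⌊u⌋ < 1 := by exact_mod_cast h3
  have h6 : -1 < ⌊t⌋ - ⌊u⌋ := by exact_mod_cast h4
  have h7 : ⌊t⌋ = ⌊u⌋ := by omega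
  rw [Int.fract, Int.fract, h7]
  ring

/-- the index of the interval of length `1/q` containing a point of the circle -/
def fl (q : ℕ) (t : T1) : ℤ := ⌊(q : ℝ) * (AddCircle.equivIco 1 0 t : ℝ)⌋

lemma fl_coe (q : ℕ) (x : ℝ) : fl q (x : T1) ≡ ⌊(q : ℝ) * x⌋ [ZMOD q] := by
  have h : ((AddCircle.equivIco 1 0 (x : T1) : ℝ) : T1) = (x : T1) :=
    (AddCircle.equivIco 1 0).symm_apply_apply _
  obtain ⟨n, hn⟩ := exists_int_of_coe_eq h.symm
  rw [fl, hn, mul_add, show (q : ℝ) * n = ((q * n : ℤ) : ℝ) by push_cast; ring,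
    Int.floor_add_intCast]
  exact (Int.modEq_iff_dvd.2 ⟨n, by ring⟩).symm

lemma measurable_fl (q : ℕ) : Measurable (fl q) := by
  refine Measurable.floor (measurable_const.mul (measurable_subtype_coe.comp ?_))
  exact (AddCircle.measurableEquivIco 1 0).measurable

lemma bad_le {f : Tor → T1} (hf : MeasurePreserving f volume volume) (η : ℝ) :
    volume {p | η ≤ ‖f p‖}ᶜ ≤ ENNReal.ofReal (2 * η) := by
  have : {p | η ≤ ‖f p‖}ᶜ ⊆ f ⁻¹' Metric.closedBall 0 η := by
    intro p hp
    simp only [mem_compl_iff, Set.mem_ofPred_eq, not_le] at hp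
    simpa using hp.le
  refine (measure_mono this).trans ?_
  rw [hf.measure_preimage measurableSet_closedBall.nullMeasurableSet,
    AddCircle.volume_closedBall]
  exact ENNReal.ofReal_le_ofReal (min_le_right _ _)

lemma mp_nsmul {n : ℕ} (hn : 0 < n) :
    MeasurePreserving (fun t : T1 => (n : ℤ) • t) volume volume :=
  Measure.measurePreserving_zsmul volume (by exact_mod_cast hn.ne')

lemma zsmul_coe (n : ℕ) (x : ℝ) : (n : ℤ) • (x : T1) = ((n * x : ℝ) : T1) := by
  rw [← AddCircle.coe_zsmul]
  simp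

end Vale.Agent.P109
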