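import Vale.Agent.P109.Saw

/-! Choice of the next conjugating map. -/

open MeasureTheory Set Function Filter Topology
open scoped ContDiff

noncomputable section

namespace Vale.Agent.P109

lemma per_of {s : ℝ → ℝ} (hs : ∀ (n : ℤ) t, s (t + n) = s t) (N : ℕ) (c d : ℝ) :
    ∀ n : ℤ, ∃ n' : ℤ, ∀ y : ℝ, c * s (N * (y + n)) + d = c * s (N * y) + d + n' := by
  intro n
  refine ⟨0, fun y => ?_⟩
  rw [mul_add, show (N : ℝ) * n = ((N * n : ℤ) : ℝ) by push_cast; ring, hs]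
  simp

lemma sm_of {s : ℝ → ℝ} (hs : ContDiff ℝ ∞ s) (N : ℕ) (c d : ℝ) :
    ContDiff ℝ ∞ (fun y : ℝ => c * s (N * y) + d) :=
  (contDiff_const.mul (hs.comp (contDiff_const.mul contDiff_id))).add contDiff_const

/-- the three-shear computation -/
lemma three_shear {q N : ℕ} (hq : 0 < q) (hN : 0 < N) {s : ℝ → ℝ} {η x y a b c : ℝ}
    (hs : ∀ t : ℝ, η ≤ ‖(t : T1)‖ → s t = Int.fract t)
    (ha : a = x + (-(1 / q) * s (N * y) + 0)) (hb : b = y + (1 / N * s (q * a) + 0))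
    (hc : c = a + (-(1 / q) * s (N * b) + 1 / q))
    (h1 : η ≤ ‖((N * y : ℝ) : T1)‖) (h2 : η ≤ ‖((q * a : ℝ) : T1)‖)
    (h3 : η ≤ ‖((N * b : ℝ) : T1)‖) :
    (q : ℝ) * c = ⌊(q : ℝ) * x⌋ + 1 - Int.fract ((N : ℝ) * y) := by
  have hq' : (q : ℝ) ≠ 0 := by exact_mod_cast hq.ne'
  have hN' : (N : ℝ) ≠ 0 := by exact_mod_cast hN.ne'
  rw [hs _ h1] at ha
  rw [hs _ h2] at hb
  rw [hs _ h3] at hc
  have e1 : (q : ℝ) * a = q * x - Int.fract ((N : ℝ) * y) := by
    rw [ha]; field_simp; ring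
  have e2 : (N : ℝ) * b = q * x + ((⌊(N : ℝ) * y⌋ - ⌊(q : ℝ) * a⌋ : ℤ) : ℝ) := by
    have : (N : ℝ) * b = N * y + Int.fract ((q : ℝ) * a) := by
      rw [hb]; field_simp; ring
    rw [this, Int.fract]
    conv_lhs => rw [e1, ← e1]
    push_cast
    rw [e1, Int.fract]
    ring
  have e3 : Int.fract ((N : ℝ) * b) = Int.fract ((q : ℝ) * x) := by
    rw [e2, Int.fract_add_intCast]
  have e4 : (q : ℝ) * c = q * a - Int.fract ((N : ℝ) * b) + 1 := by
    rw [hc]; field_simp; ring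
  rw [e4, e3, e1, ← Int.self_sub_floor ((q : ℝ) * x)]
  ring

lemma stepA (H : TD) (q Q : ℕ) (hq : 0 < q) (ε : ℝ) (hε : 0 < ε) :
    ∃ (K : TD) (C : Set Tor) (δ : ℝ), 0 < δ ∧ MeasurableSet C ∧
      volume Cᶜ ≤ ENNReal.ofReal ε ∧
      (∀ z, K.f (z + (1 / (q : ℝ), 0)) = H.f (H.g (K.f z) + (1 / (q : ℝ), 0))) ∧
      (∀ z, pr z ∈ C →
        ⌊(q : ℝ) * z.1⌋ ≡ ⌊(q : ℝ) * (H.g (K.f z)).1 + Q * (H.g (K.f z)).2⌋ [ZMOD Q] ∧
          |(H.g (K.f z)).1 - z.1| ≤ (Q + 1) / q) ∧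
      (∀ z z', pr z ∈ C → pr z' ∈ C → ⌊(q : ℝ) * z.1⌋ = ⌊(q : ℝ) * z'.1⌋ →
        |z.2 - z'.2| < δ → dist (K.F (pr z)) (K.F (pr z')) ≤ ε) := by
  have hq' : (0 : ℝ) < q := by exact_mod_cast hq
  set η : ℝ := min (ε / 8) (1 / 4) with hη
  have hη0 : 0 < η := lt_min (by linarith) (by norm_num)
  have hη1 : η < 1 / 2 := (min_le_right _ _).trans_lt (by norm_num)
  have hη2 : η ≤ ε / 8 := min_le_left _ _
  obtain ⟨s, hsc, hsp, hsb, hs⟩ := exists_saw hη0 hη1
  let G1 : TD := TD.hsh (fun y => -(Q / q) * s ((1 : ℕ) * y) + 0) (sm_of hsc 1 _ _)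
    (per_of hsp 1 _ _)
  let L : TD := H.comp G1
  obtain ⟨δ₁, hδ₁, hL⟩ := Metric.uniformContinuous_iff.1
    (CompactSpace.uniformContinuous_of_continuous L.contF) ε hε
  obtain ⟨N, hN⟩ := exists_nat_gt (3 / δ₁)
  have hN0 : (0 : ℝ) < N := lt_trans (by positivity) hN
  have hN0' : 0 < N := by exact_mod_cast hN0
  have hN3 : 3 / N < δ₁ := by
    rw [div_lt_iff₀ hδ₁] at hN
    rw [div_lt_iff₀ hN0]
    linarith
  let U1 : TD := TD.hsh (fun y => -(1 / q) * s (N * y) + 0) (sm_of hsc N _ _) (per_of hsp N _ _)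
  let V : TD := TD.vsh (fun x => 1 / N * s (q * x) + 0) (sm_of hsc q _ _) (per_of hsp q _ _)
  let U2 : TD := TD.hsh (fun y => -(1 / q) * s (N * y) + 1 / q) (sm_of hsc N _ _)
    (per_of hsp N _ _)
  let W : TD := U2.comp (V.comp U1)
  let f1 : Tor → T1 := fun p => (N : ℤ) • p.2
  let f2 : Tor → T1 := fun p => (q : ℤ) • (U1.F p).1
  let f3 : Tor → T1 := fun p => (N : ℤ) • ((V.comp U1).F p).2
  let f4 : Tor → T1 := fun p => ((V.comp U1).F p).2
  have m1 : MeasurePreserving f1 volume volume := (mp_nsmul hN0').comp measurePreserving_snd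
  have m2 : MeasurePreserving f2 volume volume :=
    (mp_nsmul hq).comp (measurePreserving_fst.comp U1.mF)
  have m4 : MeasurePreserving f4 volume volume := measurePreserving_snd.comp (V.comp U1).mF
  have m3 : MeasurePreserving f3 volume volume := (mp_nsmul hN0').comp m4
  have ms : ∀ {f : Tor → T1}, MeasurePreserving f volume volume →
      MeasurableSet {p | η ≤ ‖f p‖} := fun hf =>
    measurableSet_le measurable_const hf.measurable.norm
  let C : Set Tor := ({p | η ≤ ‖f1 p‖} ∩ {p | η ≤ ‖f2 p‖}) ∩ ({p | η ≤ ‖f3 p‖} ∩ {p | η ≤ ‖f4 p‖})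
  -- the key formula on the good set
  have key : ∀ z, pr z ∈ C →
      (q : ℝ) * (W.f z).1 = ⌊(q : ℝ) * z.1⌋ + 1 - Int.fract ((N : ℝ) * z.2) ∧
      |(W.f z).2 - z.2| ≤ 1 / N ∧ η ≤ ‖((N * z.2 : ℝ) : T1)‖ ∧ η ≤ ‖((W.f z).2 : T1)‖ := by
    intro z hz
    obtain ⟨⟨h1, h2⟩, h3, h4⟩ := hz
    simp only [Set.mem_ofPred_eq, f1, f2, f3, f4, TD.pf] at h1 h2 h3 h4
    simp only [pr, zsmul_coe] at h1 h2 h3 h4
    refine ⟨three_shear hq hN0' hs rfl rfl rfl h1 h2 h3, ?_, h1, h4⟩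
    have : (W.f z).2 - z.2 = 1 / N * s (q * (U1.f z).1) := by
      simp [W, U2, V, U1]
    rw [this, abs_mul, abs_of_pos (by positivity : (0 : ℝ) < 1 / N)]
    exact mul_le_of_le_one_right (by positivity) (hsb _)
  refine ⟨L.comp W, C, min η δ₁ / (2 * N), by positivity,
    ((ms m1).inter (ms m2)).inter ((ms m3).inter (ms m4)), ?_, ?_, ?_, ?_⟩
  · simp only [C, compl_inter]
    have h2 : (0 : ℝ) ≤ 2 * η := by positivity
    calc _ ≤ (ENNReal.ofReal (2 * η) + ENNReal.ofReal (2 * η)) +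
          (ENNReal.ofReal (2 * η) + ENNReal.ofReal (2 * η)) := by
          refine (measure_union_le _ _).trans (add_le_add ?_ ?_)
          · exact (measure_union_le _ _).trans (add_le_add (bad_le m1 η) (bad_le m2 η))
          · exact (measure_union_le _ _).trans (add_le_add (bad_le m3 η) (bad_le m4 η))
      _ ≤ _ := by
          rw [← ENNReal.ofReal_add h2 h2, ← ENNReal.ofReal_add (by positivity) (by positivity)]
          exact ENNReal.ofReal_le_ofReal (by linarith)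
  · intro z
    simp only [TD.comp_f, L, H.gf]
    congr 1
    have e : ∀ x : ℝ, s (q * (x + 1 / q)) = s (q * x) := by
      intro x
      rw [mul_add, mul_one_div_cancel hq'.ne']
      simpa using hsp 1 (q * x)
    have e1 : U1.f (z + (1 / (q : ℝ), 0)) = U1.f z + (1 / (q : ℝ), 0) := by
      simp only [U1, TD.hsh_f, Prod.fst_add, Prod.snd_add, add_zero, Prod.mk_add_mk]
      congr 1; ring
    have e2 : ∀ w : E, V.f (w + (1 / (q : ℝ), 0)) = V.f w + (1 / (q : ℝ), 0) := by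
      intro w
      simp only [V, TD.vsh_f, Prod.fst_add, Prod.snd_add, add_zero, Prod.mk_add_mk, e]
    have e3 : ∀ w : E, U2.f (w + (1 / (q : ℝ), 0)) = U2.f w + (1 / (q : ℝ), 0) := by
      intro w
      simp only [U2, TD.hsh_f, Prod.fst_add, Prod.snd_add, add_zero, Prod.mk_add_mk]
      congr 1; ring
    have e4 : ∀ w : E, G1.f (w + (1 / (q : ℝ), 0)) = G1.f w + (1 / (q : ℝ), 0) := by
      intro w
      simp only [G1, TD.hsh_f, Prod.fst_add, Prod.snd_add, add_zero, Prod.mk_add_mk]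
      congr 1; ring
    simp only [W, TD.comp_f, e1, e2, e3, e4]
  · intro z hz
    obtain ⟨k1, -, k3, k4⟩ := key z hz
    have hw : H.g ((L.comp W).f z) =
        ((W.f z).1 + (-(Q / q) * Int.fract (W.f z).2), (W.f z).2) := by
      simp only [TD.comp_f, L, H.gf, G1, TD.hsh_f, Nat.cast_one, one_mul, add_zero, hs _ k4]
    rw [hw]
    rw [norm_coe_eq_min, le_min_iff] at k3
    have hf0 := Int.fract_nonneg (W.f z).2
    have hf1 := Int.fract_lt_one (W.f z).2
    constructor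
    · have e : (q : ℝ) * ((W.f z).1 + (-(Q / q) * Int.fract (W.f z).2)) + Q * (W.f z).2 =
          (1 - Int.fract ((N : ℝ) * z.2)) + ((⌊(q : ℝ) * z.1⌋ + Q * ⌊(W.f z).2⌋ : ℤ) : ℝ) := by
        rw [mul_add, k1, ← Int.self_sub_floor (W.f z).2]
        push_cast
        field_simp
        ring
      have e0 : ⌊1 - Int.fract ((N : ℝ) * z.2)⌋ = 0 := by
        rw [Int.floor_eq_iff]
        constructor <;> push_cast <;> linarith [k3.1, k3.2]
      dsimp only
      rw [e, Int.floor_add_intCast, e0, zero_add]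
      exact Int.modEq_iff_dvd.2 ⟨⌊(W.f z).2⌋, by ring⟩
    · dsimp only
      rw [le_div_iff₀ hq', ← abs_of_pos hq', ← abs_mul, abs_of_pos hq']
      have e : ((W.f z).1 + (-(Q / q) * Int.fract (W.f z).2) - z.1) * q =
          1 - Int.fract ((N : ℝ) * z.2) - Int.fract ((q : ℝ) * z.1) -
            Q * Int.fract (W.f z).2 := by
        have : ((W.f z).1 + (-(Q / q) * Int.fract (W.f z).2) - z.1) * q =
          q * (W.f z).1 - Q * Int.fract (W.f z).2 - q * z.1 := by field_simp; ring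
        rw [this, k1, ← Int.self_sub_floor ((q : ℝ) * z.1)]
        ring
      rw [e, abs_le]
      have hg0 := Int.fract_nonneg ((q : ℝ) * z.1)
      have hg1 := Int.fract_lt_one ((q : ℝ) * z.1)
      have hQ : (0 : ℝ) ≤ Q := Nat.cast_nonneg _
      have h5 : 0 ≤ (Q : ℝ) * Int.fract (W.f z).2 := mul_nonneg hQ hf0
      have h6 : (Q : ℝ) * Int.fract (W.f z).2 ≤ Q := mul_le_of_le_one_right hQ hf1.le
      constructor <;> linarith [k3.1, k3.2]
  · intro z z' hz hz' hfl hy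
    obtain ⟨k1, k2, k3, -⟩ := key z hz
    obtain ⟨k1', k2', k3', -⟩ := key z' hz'
    have hm1 : min η δ₁ ≤ η := min_le_left _ _
    have hm2 : min η δ₁ ≤ δ₁ := min_le_right _ _
    have hy' : |(N : ℝ) * z.2 - N * z'.2| < min η δ₁ / 2 := by
      rw [← mul_sub, abs_mul, abs_of_pos hN0]
      rw [lt_div_iff₀ (by positivity)] at hy
      linarith
    have hfr := fract_sub_fract k3 k3' (by linarith)
    simp only [TD.comp_F, W.pf]
    refine (hL (lt_of_le_of_lt (dist_pr_le _ _) ?_)).le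
    rw [Prod.dist_eq, max_lt_iff, Real.dist_eq, Real.dist_eq]
    constructor
    · have e : (W.f z).1 - (W.f z').1 = -(N * z.2 - N * z'.2) / q := by
        rw [eq_div_iff hq'.ne', ← hfr]
        rw [hfl] at k1
        linarith
      rw [e, abs_div, abs_neg, abs_of_pos hq', div_lt_iff₀ hq']
      have h1 : (1 : ℝ) ≤ q := by exact_mod_cast hq
      nlinarith
    · have h1 : |z.2 - z'.2| ≤ 1 / N := by
        refine hy.le.trans ?_
        rw [div_le_div_iff₀ (by positivity) hN0]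
        nlinarith
      rw [abs_le] at k2 k2' h1
      have h3 : (3 : ℝ) / N = 1 / N + 1 / N + 1 / N := by ring
      rw [abs_lt]
      constructor <;> linarith [k2.1, k2.2, k2'.1, k2'.2, h1.1, h1.2]

end Vale.Agent.P109
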