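import Mathlib

/-! Smooth area preserving maps of the two-torus together with their lifts. -/

open MeasureTheory Set Function Filter Topology
open scoped ContDiff

noncomputable section

namespace Vale.Agent.P109

abbrev E := ℝ × ℝ
abbrev T1 := UnitAddCircle
abbrev Tor := T1 × T1

def pr (z : E) : Tor := ((z.1 : T1), (z.2 : T1))

def lat (m : ℤ × ℤ) : E := ((m.1 : ℝ), (m.2 : ℝ))

lemma coe_int (n : ℤ) : (((n : ℝ)) : T1) = 0 := by
  rw [AddCircle.coe_eq_zero_iff]
  exact ⟨n, by simp⟩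

lemma coe_add_int (x : ℝ) (n : ℤ) : ((x + n : ℝ) : T1) = (x : T1) := by
  rw [AddCircle.coe_add, coe_int, add_zero]

lemma pr_add_lat (z : E) (m : ℤ × ℤ) : pr (z + lat m) = pr z := by
  simp [pr, lat, coe_add_int, coe_int]

lemma exists_int_of_coe_eq {x y : ℝ} (h : (x : T1) = (y : T1)) : ∃ n : ℤ, y = x + n := by
  have h' : ((y - x : ℝ) : T1) = 0 := by rw [AddCircle.coe_sub, h, sub_self]
  rw [AddCircle.coe_eq_zero_iff] at h'
  obtain ⟨n, hn⟩ := h'
  exact ⟨n, by simp at hn; linarith⟩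

lemma exists_lat_of_pr_eq {z w : E} (h : pr z = pr w) : ∃ m, w = z + lat m := by
  obtain ⟨a, ha⟩ := exists_int_of_coe_eq (congrArg Prod.fst h)
  obtain ⟨b, hb⟩ := exists_int_of_coe_eq (congrArg Prod.snd h)
  exact ⟨(a, b), Prod.ext ha hb⟩

lemma oq1 : IsOpenQuotientMap (fun x : ℝ => (x : T1)) :=
  QuotientAddGroup.isOpenQuotientMap_mk

lemma oq : IsOpenQuotientMap pr := oq1.prodMap oq1

lemma pr_surj : Surjective pr := oq.surjective

lemma continuous_pr : Continuous pr := oq.continuous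

lemma norm_coe_le (x : ℝ) : ‖(x : T1)‖ ≤ |x| := by
  rw [UnitAddCircle.norm_eq]
  have := round_le x 0
  simpa using this

lemma dist_coe_le (x y : ℝ) : dist (x : T1) (y : T1) ≤ |x - y| := by
  rw [dist_eq_norm, ← AddCircle.coe_sub]
  exact norm_coe_le _

lemma dist_pr_le (z w : E) : dist (pr z) (pr w) ≤ dist z w := by
  rw [Prod.dist_eq, Prod.dist_eq]
  exact max_le_max (dist_coe_le _ _) (dist_coe_le _ _)

/-- A smooth diffeomorphism of the plane which descends to an area preserving map of the torus. -/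
structure TD where
  f : E → E
  g : E → E
  F : Tor → Tor
  G : Tor → Tor
  cf : ContDiff ℝ ∞ f
  cg : ContDiff ℝ ∞ g
  gf : ∀ z, g (f z) = z
  fg : ∀ z, f (g z) = z
  ef : ∀ m, ∃ m', ∀ z, f (z + lat m) = f z + lat m'
  eg : ∀ m, ∃ m', ∀ z, g (z + lat m) = g z + lat m'
  pf : ∀ z, F (pr z) = pr (f z)
  pg : ∀ z, G (pr z) = pr (g z)
  mF : MeasurePreserving F volume volume

namespace TD

lemma contF (H : TD) : Continuous H.F := by
  rw [← oq.continuous_comp_iff]
  have : H.F ∘ pr = pr ∘ H.f := funext H.pf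
  rw [this]
  exact continuous_pr.comp H.cf.continuous

lemma contG (H : TD) : Continuous H.G := by
  rw [← oq.continuous_comp_iff]
  have : H.G ∘ pr = pr ∘ H.g := funext H.pg
  rw [this]
  exact continuous_pr.comp H.cg.continuous

lemma GF (H : TD) (p : Tor) : H.G (H.F p) = p := by
  obtain ⟨z, rfl⟩ := pr_surj p
  rw [H.pf, H.pg, H.gf]

lemma FG (H : TD) (p : Tor) : H.F (H.G p) = p := by
  obtain ⟨z, rfl⟩ := pr_surj p
  rw [H.pg, H.pf, H.fg]

lemma mG (H : TD) : MeasurePreserving H.G volume volume := by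
  refine ⟨H.contG.measurable, ?_⟩
  conv_lhs => rw [← H.mF.map_eq]
  rw [Measure.map_map H.contG.measurable H.contF.measurable]
  have : H.G ∘ H.F = id := funext H.GF
  rw [this, Measure.map_id]

def inv (H : TD) : TD where
  f := H.g
  g := H.f
  F := H.G
  G := H.F
  cf := H.cg
  cg := H.cf
  gf := H.fg
  fg := H.gf
  ef := H.eg
  eg := H.ef
  pf := H.pg
  pg := H.pf
  mF := H.mG

def comp (H K : TD) : TD where
  f := fun z => H.f (K.f z)
  g := fun z => K.g (H.g z)
  F := fun p => H.F (K.F p)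
  G := fun p => K.G (H.G p)
  cf := H.cf.comp K.cf
  cg := K.cg.comp H.cg
  gf := fun z => by rw [H.gf, K.gf]
  fg := fun z => by rw [K.fg, H.fg]
  ef := fun m => by
    obtain ⟨m1, h1⟩ := K.ef m
    obtain ⟨m2, h2⟩ := H.ef m1
    exact ⟨m2, fun z => by rw [h1, h2]⟩
  eg := fun m => by
    obtain ⟨m1, h1⟩ := H.eg m
    obtain ⟨m2, h2⟩ := K.eg m1
    exact ⟨m2, fun z => by rw [h1, h2]⟩
  pf := fun z => by rw [K.pf, H.pf]
  pg := fun z => by rw [H.pg, K.pg]
  mF := H.mF.comp K.mF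

def swap : TD where
  f := Prod.swap
  g := Prod.swap
  F := Prod.swap
  G := Prod.swap
  cf := contDiff_snd.prodMk contDiff_fst
  cg := contDiff_snd.prodMk contDiff_fst
  gf := fun _ => rfl
  fg := fun _ => rfl
  ef := fun m => ⟨m.swap, fun _ => rfl⟩
  eg := fun m => ⟨m.swap, fun _ => rfl⟩
  pf := fun _ => rfl
  pg := fun _ => rfl
  mF := Measure.measurePreserving_swap

/-- descent of a quasi-periodic function -/
def desc (u : ℝ → ℝ) (t : T1) : T1 := (u (AddCircle.equivIco 1 0 t : ℝ) : T1)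

lemma desc_coe {u : ℝ → ℝ} (hu : ∀ n : ℤ, ∃ n' : ℤ, ∀ y, u (y + n) = u y + n') (y : ℝ) :
    desc u (y : T1) = (u y : T1) := by
  have h : ((AddCircle.equivIco 1 0 (y : T1) : ℝ) : T1) = (y : T1) :=
    (AddCircle.equivIco 1 0).symm_apply_apply _
  obtain ⟨n, hn⟩ := exists_int_of_coe_eq h.symm
  obtain ⟨n', hn'⟩ := hu n
  rw [desc, hn, hn', coe_add_int]

lemma continuous_desc {u : ℝ → ℝ} (hc : Continuous u)
    (hu : ∀ n : ℤ, ∃ n' : ℤ, ∀ y, u (y + n) = u y + n') : Continuous (desc u) := by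
  rw [← oq1.continuous_comp_iff]
  have : desc u ∘ (fun x : ℝ => (x : T1)) = (fun x : ℝ => (x : T1)) ∘ u := funext (desc_coe hu)
  rw [this]
  exact oq1.continuous.comp hc

/-- vertical shear -/
def vsh (u : ℝ → ℝ) (hc : ContDiff ℝ ∞ u)
    (hu : ∀ n : ℤ, ∃ n' : ℤ, ∀ y, u (y + n) = u y + n') : TD where
  f := fun z => (z.1, z.2 + u z.1)
  g := fun z => (z.1, z.2 - u z.1)
  F := fun p => (p.1, p.2 + desc u p.1)
  G := fun p => (p.1, p.2 - desc u p.1)
  cf := contDiff_fst.prodMk (contDiff_snd.add (hc.comp contDiff_fst))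
  cg := contDiff_fst.prodMk (contDiff_snd.sub (hc.comp contDiff_fst))
  gf := fun z => by simp
  fg := fun z => by simp
  ef := fun m => by
    obtain ⟨n', hn'⟩ := hu m.1
    refine ⟨(m.1, m.2 + n'), fun z => ?_⟩
    simp only [lat, Prod.fst_add, Prod.snd_add, hn', Prod.mk_add_mk, Int.cast_add]
    congr 1
    ring
  eg := fun m => by
    obtain ⟨n', hn'⟩ := hu m.1
    refine ⟨(m.1, m.2 - n'), fun z => ?_⟩
    simp only [lat, Prod.fst_add, Prod.snd_add, hn', Prod.mk_add_mk, Int.cast_sub]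
    congr 1
    ring
  pf := fun z => by simp [pr, desc_coe hu]
  pg := fun z => by simp [pr, desc_coe hu]
  mF := by
    have hd := (continuous_desc hc.continuous hu).measurable
    refine (MeasurePreserving.id (volume : Measure T1)).skew_product
      (g := fun a c => c + desc u a) (μc := volume) (μd := volume) ?_ ?_
    · exact measurable_snd.add (hd.comp measurable_fst)
    · exact Eventually.of_forall fun a => map_add_right_eq_self _ _

/-- horizontal shear -/
def hsh (u : ℝ → ℝ) (hc : ContDiff ℝ ∞ u)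
    (hu : ∀ n : ℤ, ∃ n' : ℤ, ∀ y, u (y + n) = u y + n') : TD :=
  swap.comp ((vsh u hc hu).comp swap)

@[simp] lemma hsh_f (u hc hu) (z : E) : (hsh u hc hu).f z = (z.1 + u z.2, z.2) := rfl
@[simp] lemma hsh_g (u hc hu) (z : E) : (hsh u hc hu).g z = (z.1 - u z.2, z.2) := rfl
@[simp] lemma vsh_f (u hc hu) (z : E) : (vsh u hc hu).f z = (z.1, z.2 + u z.1) := rfl
@[simp] lemma vsh_g (u hc hu) (z : E) : (vsh u hc hu).g z = (z.1, z.2 - u z.1) := rfl
@[simp] lemma comp_f (H K : TD) (z : E) : (H.comp K).f z = H.f (K.f z) := rfl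
@[simp] lemma comp_g (H K : TD) (z : E) : (H.comp K).g z = K.g (H.g z) := rfl
@[simp] lemma comp_F (H K : TD) (z : Tor) : (H.comp K).F z = H.F (K.F z) := rfl
@[simp] lemma comp_G (H K : TD) (z : Tor) : (H.comp K).G z = K.G (H.G z) := rfl
@[simp] lemma inv_f (H : TD) (z : E) : H.inv.f z = H.g z := rfl
@[simp] lemma inv_g (H : TD) (z : E) : H.inv.g z = H.f z := rfl
@[simp] lemma inv_F (H : TD) (z : Tor) : H.inv.F z = H.G z := rfl
@[simp] lemma inv_G (H : TD) (z : Tor) : H.inv.G z = H.F z := rfl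

/-- horizontal translation -/
def tr (a : ℝ) : TD := hsh (fun _ => a) contDiff_const (fun _ => ⟨0, fun _ => by simp⟩)

@[simp] lemma tr_f (a : ℝ) (z : E) : (tr a).f z = z + (a, 0) := by
  simp [tr, Prod.ext_iff]

@[simp] lemma tr_g (a : ℝ) (z : E) : (tr a).g z = z - (a, 0) := by
  simp [tr, Prod.ext_iff]

/-- the linear map (x, y) ↦ (y + k x, x) -/
def lin (k : ℕ) : TD :=
  swap.comp (vsh (fun x => k * x) (contDiff_const.mul contDiff_id)
    (fun n => ⟨k * n, fun y => by push_cast; ring⟩))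

@[simp] lemma lin_f (k : ℕ) (z : E) : (lin k).f z = (z.2 + k * z.1, z.1) := rfl
@[simp] lemma lin_g (k : ℕ) (z : E) : (lin k).g z = (z.2, z.1 - k * z.2) := rfl

/-- conjugating a translation gives a map commuting with the lattice -/
lemma conj_lat (K : TD) (v : E) (m : ℤ × ℤ) (z : E) :
    K.f (K.g (z + lat m) + v) = K.f (K.g z + v) + lat m := by
  obtain ⟨m1, h1⟩ := K.eg m
  obtain ⟨m2, h2⟩ := K.ef m1
  have h3 : lat m2 = lat m := by
    have h4 := h2 (K.g 0)
    rw [← h1, K.fg, K.fg] at h4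
    simpa using h4.symm
  rw [h1, add_right_comm, h2, h3]

end TD

end Vale.Agent.P109
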